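import Vale.Agent.H29.CR.Defs

/-!
# The extremal example: disjoint cliques of order `m - 1`

`blockGraph f`: two different vertices are adjacent when `f` takes the same value on them
(the blocks are the fibres of `f`).

Proof sketch for `lower_example`. Let `e := Fintype.equivFin V`,
`f x := (e x).val / (m - 1)` and `G := blockGraph f`.
* Colouring of the complement: `x ↦ f x`, which is `< n - 1 < n` because
  `(e x).val < Fintype.card V ≤ (m - 1) * (n - 1)` (`Nat.div_lt_iff_lt_mul`, `0 < m - 1`); two
  vertices with the same value of `f` are equal or adjacent in `G`, so they are not adjacent in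
  the complement.
* No cycle of length `m`: along a walk of `G` the value of `f` is constant (induction on the
  walk), so all vertices of a closed walk `p` at `v` lie in the fibre of `f v`, which has at most
  `m - 1` elements (`e` maps it injectively into the `k` with
  `f v * (m - 1) ≤ k < (f v + 1) * (m - 1)`); a cycle of length `m` has `m` different vertices
  (`p.support.tail` is duplicate-free of length `m`).
* No independent set `s` with `n` elements: `f` maps `s` into `Finset.range (n - 1)`, so two
  different elements of `s` have the same value
  (`Finset.exists_ne_map_eq_of_card_lt_of_maps_to`) and are adjacent.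
-/

namespace Vale.Agent.H29.CR

open SimpleGraph

/-- Disjoint cliques: the fibres of `f`. -/
def blockGraph {V : Type*} (f : V → ℕ) : SimpleGraph V where
  Adj x y := x ≠ y ∧ f x = f y
  symm := ⟨fun _ _ h => ⟨h.1.symm, h.2.symm⟩⟩
  loopless := ⟨fun _ h => h.1 rfl⟩

/-- Along a walk of `blockGraph f` the value of `f` is constant. -/
theorem lower_walk_const {V : Type*} (f : V → ℕ) :
    ∀ {u w : V} (p : (blockGraph f).Walk u w), ∀ x ∈ p.support, f x = f u := by
  intro u w p
  induction p with
  | nil =>
    intro x hx
    simp only [SimpleGraph.Walk.support_nil, List.mem_singleton] at hx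
    rw [hx]
  | cons h p ih =>
    intro x hx
    simp only [SimpleGraph.Walk.support_cons, List.mem_cons] at hx
    rcases hx with hx | hx
    · rw [hx]
    · rw [ih x hx]
      exact h.2.symm

/-- Sharpness: on a vertex set with at most `(m-1)(n-1)` elements there is a graph whose
complement is `n`-colourable and which has neither a cycle of length `m` nor an independent set
of `n` vertices. -/
theorem lower_example {V : Type*} [Fintype V] (m n : ℕ) (hm : 2 ≤ m) (hn : 1 ≤ n)
    (hN : Fintype.card V ≤ (m - 1) * (n - 1)) :
    ∃ G : SimpleGraph V, Gᶜ.Colorable n ∧ ¬ HasCycle G m ∧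
      ∀ s : Finset V, ¬ G.IsNIndepSet n s := by
  classical
  have hm1 : 0 < m - 1 := by omega
  set e := Fintype.equivFin V with he
  set f : V → ℕ := fun x => (e x).val / (m - 1) with hf
  have hflt : ∀ x : V, f x < n - 1 := by
    intro x
    have h1 : (e x).val < Fintype.card V := (e x).isLt
    have h2 : (e x).val < (n - 1) * (m - 1) := by
      rw [Nat.mul_comm]
      exact lt_of_lt_of_le h1 hN
    exact (Nat.div_lt_iff_lt_mul hm1).mpr h2
  refine ⟨blockGraph f, ?_, ?_, ?_⟩
  · -- the complement is `n`-colourable
    refine ⟨SimpleGraph.Coloring.mk (fun x => (⟨f x, by have := hflt x; omega⟩ : Fin n)) ?_⟩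
    intro v w hvw hc
    rw [SimpleGraph.compl_adj] at hvw
    apply hvw.2
    refine ⟨hvw.1, ?_⟩
    exact congrArg Fin.val hc
  · -- no cycle of length `m`
    rintro ⟨v, p, hp, hlen⟩
    have hnd : p.support.tail.Nodup := hp.support_nodup
    have hcard : p.support.tail.toFinset.card = m := by
      rw [List.toFinset_card_of_nodup hnd, List.length_tail, SimpleGraph.Walk.length_support, hlen]
      simp
    have hle : p.support.tail.toFinset.card ≤ (Finset.range (m - 1)).card := by
      apply Finset.card_le_card_of_injOn (fun x => (e x).val % (m - 1))
      · intro x _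
        exact Finset.mem_range.mpr (Nat.mod_lt _ hm1)
      · intro x hx y hy hxy
        have hx' : x ∈ p.support := List.mem_of_mem_tail (List.mem_toFinset.mp hx)
        have hy' : y ∈ p.support := List.mem_of_mem_tail (List.mem_toFinset.mp hy)
        have hfx : f x = f v := lower_walk_const f p x hx'
        have hfy : f y = f v := lower_walk_const f p y hy'
        have hfxy : (e x).val / (m - 1) = (e y).val / (m - 1) := hfx.trans hfy.symm
        have hmod : (e x).val % (m - 1) = (e y).val % (m - 1) := hxy
        have h1 := Nat.div_add_mod (e x).val (m - 1)
        have h2 := Nat.div_add_mod (e y).val (m - 1)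
        have h3 : (e x).val = (e y).val := by
          rw [← h1, ← h2, hfxy, hmod]
        exact e.injective (Fin.ext h3)
    rw [hcard, Finset.card_range] at hle
    omega
  · -- no independent set with `n` elements
    intro s hs
    have hcard : s.card = n := hs.card_eq
    have hlt : (Finset.range (n - 1)).card < s.card := by
      rw [Finset.card_range, hcard]
      omega
    obtain ⟨x, hx, y, hy, hxy, hfxy⟩ :=
      Finset.exists_ne_map_eq_of_card_lt_of_maps_to hlt
        (fun a _ => Finset.mem_range.mpr (hflt a))
    have hind := hs.isIndepSet
    exact hind hx hy hxy ⟨hxy, hfxy⟩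

end Vale.Agent.H29.CR
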