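import Vale.Agent.H29.CR.Cycles

/-!
# Basic consequences of the standing assumptions `Cfg`

Proof sketches.
* `Cfg.isClique_cls`: `h.adj`.
* `Cfg.cls_card_le`: otherwise `hasCycle_of_clique` gives a cycle of length `m` (`3 ≤ m`).
* `Cfg.cols_eq`: `W.card = ∑ i ∈ W.image c, (cls c W i).card`
  (`Finset.card_eq_sum_card_image c W`) `≤ (W.image c).card * (m - 1)`; with `h.big` this gives
  `n - 1 < (W.image c).card`, and `h.cols` gives the other inequality.
* `Cfg.pair`: the other `n - 2` classes have at most `m - 1` vertices each, so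
  `(m-1)(n-1) < W.card ≤ (cls i).card + (cls j).card + (n-2)(m-1)`.
* `Cfg.star`: if `a ≠ a'` and `b ≠ b'`, `hasCycle_two_cliques` for the classes of `c a` and
  `c b` (disjoint, `4 ≤ m`, `Cfg.pair`) gives a cycle of length `m`.
* `Cfg.hub`: otherwise `m ≤ (cls c W (c b)).card + 1` and `hasCycle_hub` gives a cycle.
-/

namespace Vale.Agent.H29.CR

open SimpleGraph

variable {V : Type*} [DecidableEq V] {ι : Type*} [DecidableEq ι]
variable {G : SimpleGraph V} {m n : ℕ} {c : V → ι} {W : Finset V}

theorem mem_cls {c : V → ι} {W : Finset V} {i : ι} {v : V} :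
    v ∈ cls c W i ↔ v ∈ W ∧ c v = i := by
  simp [cls]

/-- Colour classes are cliques. -/
theorem Cfg.isClique_cls (h : Cfg G m n c W) (i : ι) : G.IsClique (cls c W i : Set V) := by
  intro a ha b hb hab
  have ha' := mem_cls.1 (Finset.mem_coe.1 ha)
  have hb' := mem_cls.1 (Finset.mem_coe.1 hb)
  exact h.adj a ha'.1 b hb'.1 hab (ha'.2.trans hb'.2.symm)

/-- Every colour class has at most `m - 1` vertices. -/
theorem Cfg.cls_card_le (h : Cfg G m n c W) (i : ι) : (cls c W i).card + 1 ≤ m := by
  by_contra hcon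
  have h6 := h.hm
  exact h.nocyc (hasCycle_of_clique G _ (h.isClique_cls i) m (by omega) (by omega))

/-- Exactly `n` colours occur on `W`. -/
theorem Cfg.cols_eq (h : Cfg G m n c W) : (W.image c).card = n := by
  have hsum := Finset.card_eq_sum_card_image c W
  have hle : ∑ b ∈ W.image c, (cls c W b).card ≤ (W.image c).card * (m - 1) := by
    rw [← smul_eq_mul]
    apply Finset.sum_le_card_nsmul
    intro x _
    have := h.cls_card_le x
    omega
  have hW : W.card ≤ (W.image c).card * (m - 1) := by
    rw [hsum]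
    exact hle
  have hbig := h.big
  have hcols := h.cols
  have h1 : (m - 1) * (n - 1) < (m - 1) * (W.image c).card := by
    rw [mul_comm (m - 1) (W.image c).card]
    exact lt_of_lt_of_le hbig hW
  have h2 : n - 1 < (W.image c).card := lt_of_mul_lt_mul_left h1 (Nat.zero_le _)
  omega

/-- Two different colour classes have at least `m` vertices together. -/
theorem Cfg.pair (h : Cfg G m n c W) {i j : ι} (hi : i ∈ W.image c) (hj : j ∈ W.image c)
    (hij : i ≠ j) : m ≤ (cls c W i).card + (cls c W j).card := by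
  have hsum := Finset.card_eq_sum_card_image c W
  have h1 := Finset.add_sum_erase (W.image c) (fun b => (cls c W b).card) hi
  have hj' : j ∈ (W.image c).erase i := Finset.mem_erase.2 ⟨hij.symm, hj⟩
  have h2 := Finset.add_sum_erase ((W.image c).erase i) (fun b => (cls c W b).card) hj'
  have h3 : ∑ x ∈ ((W.image c).erase i).erase j, (cls c W x).card ≤
      (((W.image c).erase i).erase j).card * (m - 1) := by
    rw [← smul_eq_mul]
    apply Finset.sum_le_card_nsmul
    intro x _
    have := h.cls_card_le x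
    omega
  have hc1 : ((W.image c).erase i).card = n - 1 := by
    rw [Finset.card_erase_of_mem hi, h.cols_eq]
  have hn2 : 2 ≤ n := by
    have hpos : 0 < ((W.image c).erase i).card := Finset.card_pos.2 ⟨j, hj'⟩
    omega
  have hc2 : (((W.image c).erase i).erase j).card = n - 2 := by
    rw [Finset.card_erase_of_mem hj', hc1]
    omega
  rw [hc2] at h3
  have hbig := h.big
  have h6 := h.hm
  have hsum' : W.card = ∑ b ∈ W.image c, (cls c W b).card := hsum
  have h1' : (cls c W i).card + ∑ x ∈ (W.image c).erase i, (cls c W x).card =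
      ∑ x ∈ W.image c, (cls c W x).card := h1
  have h2' : (cls c W j).card + ∑ x ∈ ((W.image c).erase i).erase j, (cls c W x).card =
      ∑ x ∈ (W.image c).erase i, (cls c W x).card := h2
  have hW : W.card = (cls c W i).card + ((cls c W j).card +
      ∑ x ∈ ((W.image c).erase i).erase j, (cls c W x).card) := by
    rw [hsum', ← h1', ← h2']
  obtain ⟨k, rfl⟩ : ∃ k, n = k + 2 := ⟨n - 2, by omega⟩
  have h4 : (m - 1) * (k + 2 - 1) = k * (m - 1) + (m - 1) := by
    rw [show k + 2 - 1 = k + 1 by omega]
    ring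
  rw [h4] at hbig
  rw [show k + 2 - 2 = k by omega] at h3
  generalize k * (m - 1) = X at h3 hbig
  generalize ∑ x ∈ ((W.image c).erase i).erase j, (cls c W x).card = Y at h3 hW
  omega

/-- Star property: two edges between the same two colour classes share a vertex. -/
theorem Cfg.star (h : Cfg G m n c W) {a a' b b' : V} (ha : a ∈ W) (ha' : a' ∈ W) (hb : b ∈ W)
    (hb' : b' ∈ W) (hcaa : c a = c a') (hcbb : c b = c b') (hcab : c a ≠ c b)
    (hab : G.Adj a b) (hab' : G.Adj a' b') : a = a' ∨ b = b' := by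
  by_contra hcon
  push Not at hcon
  obtain ⟨haa, hbb⟩ := hcon
  have h6 := h.hm
  have hdisj : Disjoint (cls c W (c a)) (cls c W (c b)) :=
    Finset.disjoint_left.2 fun x hx hx' =>
      hcab ((mem_cls.1 hx).2.symm.trans (mem_cls.1 hx').2)
  have hpair := h.pair (Finset.mem_image_of_mem c ha) (Finset.mem_image_of_mem c hb) hcab
  exact h.nocyc (hasCycle_two_cliques G _ _ (h.isClique_cls (c a)) (h.isClique_cls (c b)) hdisj
    (mem_cls.2 ⟨ha, rfl⟩) (mem_cls.2 ⟨ha', hcaa.symm⟩) (mem_cls.2 ⟨hb, rfl⟩)
    (mem_cls.2 ⟨hb', hcbb.symm⟩) haa hbb hab hab' m (by omega) hpair)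

/-- Hub property: if a vertex has two neighbours in another colour class, that class has at most
`m - 2` vertices. -/
theorem Cfg.hub (h : Cfg G m n c W) {u b b' : V} (hu : u ∈ W) (hb : b ∈ W) (hb' : b' ∈ W)
    (hbb : b ≠ b') (hcbb : c b = c b') (hcu : c u ≠ c b) (hub : G.Adj u b) (hub' : G.Adj u b') :
    (cls c W (c b)).card + 2 ≤ m := by
  by_contra hcon
  have h6 := h.hm
  have hu' : u ∉ cls c W (c b) := fun hx => hcu (mem_cls.1 hx).2
  exact h.nocyc (hasCycle_hub G _ (h.isClique_cls (c b)) hu' (mem_cls.2 ⟨hb, rfl⟩)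
    (mem_cls.2 ⟨hb', hcbb.symm⟩) hbb hub hub' m (by omega) (by omega))

end Vale.Agent.H29.CR
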