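import Vale.Agent.H29.CR.Defs

/-!
# Cycles from lists of vertices

Proof sketches.
* `hasCycle_of_list`: `p := SimpleGraph.Walk.ofSupport l hne hch` is a walk from `l.head hne` to
  `l.getLast hne` with `p.support = l` (`SimpleGraph.Walk.support_ofSupport`), so it is a path
  (`SimpleGraph.Walk.isPath_def`) of length `l.length - 1` (`SimpleGraph.Walk.length_support`).
  `SimpleGraph.Walk.cons hcl p` is a cycle by `SimpleGraph.Walk.cons_isCycle_iff`: the closing
  edge is not an edge of `p`, because otherwise `p.length = 1`
  (`SimpleGraph.Walk.IsPath.length_eq_one_of_mem_edges`, after `Sym2.eq_swap`).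
* `exists_clique_list`: `(S.erase a).erase a'` has `S.card - 2` elements; take a subset `T` of it
  with `s - 2` elements (`Finset.exists_subset_card_eq`) and `l = a :: (T.toList ++ [a'])`.
  The list is duplicate-free and all its elements lie in the clique `S`, so it is a chain for
  `G.Adj` (a duplicate-free list in a clique is a chain: `List.Pairwise` gives `List.IsChain`).
* `hasCycle_necklace`: take the list `M` of `exists_clique_list` from `a'` to `a` with `s`
  elements and apply `hasCycle_of_list` to `M ++ L` (head `a'`, last element `L.getLast hL`).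
-/

namespace Vale.Agent.H29.CR

open SimpleGraph

variable {V : Type*}

/-- A duplicate-free list of at least three vertices in which consecutive vertices are adjacent
and the last vertex is adjacent to the first one gives a cycle of that length. -/
theorem hasCycle_of_list (G : SimpleGraph V) (l : List V) (hne : l ≠ []) (hnd : l.Nodup)
    (hch : l.IsChain G.Adj) (hcl : G.Adj (l.getLast hne) (l.head hne)) (h3 : 3 ≤ l.length) :
    HasCycle G l.length := by
  have hsup : (SimpleGraph.Walk.ofSupport l hne hch).support = l :=
    SimpleGraph.Walk.support_ofSupport hne hch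
  have hpath : (SimpleGraph.Walk.ofSupport l hne hch).IsPath := by
    rw [SimpleGraph.Walk.isPath_def, hsup]
    exact hnd
  have hlen : (SimpleGraph.Walk.ofSupport l hne hch).length + 1 = l.length := by
    rw [← SimpleGraph.Walk.length_support, hsup]
  refine ⟨l.getLast hne, SimpleGraph.Walk.cons hcl (SimpleGraph.Walk.ofSupport l hne hch), ?_, ?_⟩
  · rw [SimpleGraph.Walk.cons_isCycle_iff]
    refine ⟨hpath, fun hmem => ?_⟩
    rw [Sym2.eq_swap] at hmem
    have h1 := hpath.length_eq_one_of_mem_edges hmem
    omega
  · rw [SimpleGraph.Walk.length_cons]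
    exact hlen

/-- A duplicate-free list all of whose elements lie in a clique is a chain. -/
theorem crlist_chain_of_clique (G : SimpleGraph V) (S : Set V) (hS : G.IsClique S) (l : List V)
    (hnd : l.Nodup) (hmem : ∀ x ∈ l, x ∈ S) : l.IsChain G.Adj := by
  apply List.Pairwise.isChain
  exact List.Pairwise.imp_of_mem (fun hx hy hxy => hS (hmem _ hx) (hmem _ hy) hxy) hnd

/-- In a clique `S`, for distinct `a, a' ∈ S` and every `2 ≤ s ≤ |S|` there is a duplicate-free
list of `s` vertices of `S` from `a` to `a'` (consecutive vertices are adjacent). -/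
theorem exists_clique_list [DecidableEq V] (G : SimpleGraph V) (S : Finset V)
    (hS : G.IsClique (S : Set V)) {a a' : V} (ha : a ∈ S) (ha' : a' ∈ S) (hne : a ≠ a')
    (s : ℕ) (h2 : 2 ≤ s) (hs : s ≤ S.card) :
    ∃ l : List V, ∃ hl : l ≠ [], l.Nodup ∧ l.length = s ∧ (∀ x ∈ l, x ∈ S) ∧
      l.head hl = a ∧ l.getLast hl = a' ∧ l.IsChain G.Adj := by
  have hcard : ((S.erase a).erase a').card = S.card - 2 := by
    rw [Finset.card_erase_of_mem (Finset.mem_erase.mpr ⟨fun h => hne h.symm, ha'⟩),
      Finset.card_erase_of_mem ha]
    omega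
  obtain ⟨T, hTsub, hTcard⟩ :=
    Finset.exists_subset_card_eq (s := (S.erase a).erase a') (n := s - 2) (by omega)
  have hTS : ∀ x ∈ T, x ∈ S := fun x hx =>
    Finset.mem_of_mem_erase (Finset.mem_of_mem_erase (hTsub hx))
  have haT : a ∉ T := fun h => by
    have := Finset.mem_of_mem_erase (hTsub h)
    exact (Finset.mem_erase.mp this).1 rfl
  have ha'T : a' ∉ T := fun h => (Finset.mem_erase.mp (hTsub h)).1 rfl
  have hnd : (a :: (T.toList ++ [a'])).Nodup := by
    rw [List.nodup_cons]
    refine ⟨?_, ?_⟩
    · intro h
      rcases List.mem_append.mp h with h | h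
      · exact haT (Finset.mem_toList.mp h)
      · exact hne (List.mem_singleton.mp h)
    · rw [List.nodup_append]
      refine ⟨T.nodup_toList, List.nodup_singleton a', ?_⟩
      intro x hx y hy hxy
      rw [List.mem_singleton] at hy
      subst hy
      subst hxy
      exact ha'T (Finset.mem_toList.mp hx)
  have hmem : ∀ x ∈ a :: (T.toList ++ [a']), x ∈ S := by
    intro x hx
    rcases List.mem_cons.mp hx with rfl | hx
    · exact ha
    · rcases List.mem_append.mp hx with hx | hx
      · exact hTS x (Finset.mem_toList.mp hx)
      · rw [List.mem_singleton.mp hx]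
        exact ha'
  refine ⟨a :: (T.toList ++ [a']), List.cons_ne_nil _ _, hnd, ?_, hmem, List.head_cons, ?_,
    crlist_chain_of_clique G (S : Set V) hS _ hnd (fun x hx => Finset.mem_coe.mpr (hmem x hx))⟩
  · rw [List.length_cons, List.length_append, Finset.length_toList, hTcard, List.length_singleton]
    omega
  · have e : a :: (T.toList ++ [a']) = (a :: T.toList) ++ [a'] := rfl
    simp only [e, List.getLast_append_singleton]

/-- Necklace lemma: a clique `S`, two distinct vertices `a, a'` of `S`, and a path `L` outside
`S` from a neighbour of `a` to a neighbour of `a'` give cycles of all lengths `s + |L|`,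
`2 ≤ s ≤ |S|`. -/
theorem hasCycle_necklace [DecidableEq V] (G : SimpleGraph V) (S : Finset V)
    (hS : G.IsClique (S : Set V)) {a a' : V} (ha : a ∈ S) (ha' : a' ∈ S) (hne : a ≠ a')
    (L : List V) (hL : L ≠ []) (hnd : L.Nodup) (hdisj : ∀ x ∈ L, x ∉ S)
    (hch : L.IsChain G.Adj) (h1 : G.Adj a (L.head hL)) (h2 : G.Adj (L.getLast hL) a')
    (s : ℕ) (hs2 : 2 ≤ s) (hs : s ≤ S.card) :
    HasCycle G (s + L.length) := by
  obtain ⟨M, hM, hMnd, hMlen, hMS, hMhead, hMlast, hMch⟩ :=
    exists_clique_list G S hS ha' ha (fun h => hne h.symm) s hs2 hs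
  have hne' : M ++ L ≠ [] := List.append_ne_nil_of_left_ne_nil hM L
  have hLlen : 1 ≤ L.length := List.length_pos_iff.mpr hL
  have hnd' : (M ++ L).Nodup := by
    rw [List.nodup_append]
    refine ⟨hMnd, hnd, ?_⟩
    intro x hx y hy hxy
    subst hxy
    exact hdisj x hy (hMS x hx)
  have hch' : (M ++ L).IsChain G.Adj := by
    apply List.IsChain.append hMch hch
    intro x hx y hy
    rw [List.getLast?_eq_some_getLast hM] at hx
    rw [List.head?_eq_some_head hL] at hy
    have ex : x = a := by
      have := Option.mem_some_iff.mp hx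
      rw [← this, hMlast]
    have ey : y = L.head hL := (Option.mem_some_iff.mp hy).symm
    rw [ex, ey]
    exact h1
  have hlast : (M ++ L).getLast hne' = L.getLast hL := List.getLast_append_of_ne_nil hne' hL
  have hhead : (M ++ L).head hne' = a' := by
    rw [List.head_append_of_ne_nil hM, hMhead]
  have hcl : G.Adj ((M ++ L).getLast hne') ((M ++ L).head hne') := by
    rw [hlast, hhead]
    exact h2
  have h3 : 3 ≤ (M ++ L).length := by
    rw [List.length_append]
    omega
  have hfin := hasCycle_of_list G (M ++ L) hne' hnd' hch' hcl h3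
  rw [List.length_append, hMlen] at hfin
  exact hfin

end Vale.Agent.H29.CR
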