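import Vale.Agent.H29.CR.CycleList

/-!
# The cycle constructions used in the proof (all via the necklace lemma)

Proof sketches (necklace lemma = `hasCycle_necklace` in `CycleList`).
* `hasCycle_of_clique`: pick `x ∈ S`; necklace lemma for the clique `S.erase x`, two of its
  vertices, `L = [x]`, `s = m - 1` (or directly: `exists_clique_list` with `s = m` and
  `hasCycle_of_list`).
* `hasCycle_two_cliques`: let `t = min T.card (m - 2)`, so `2 ≤ t ≤ T.card` and
  `2 ≤ m - t ≤ S.card`. `exists_clique_list` in `T` gives a list `L` from `b` to `b'` with `t`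
  elements; necklace lemma for `S`, `a`, `a'`, `L`, `s = m - t`.
* `hasCycle_hub`: necklace lemma for the clique `T`, `a = b`, `a' = b'`, `L = [u]`, `s = m - 1`.
-/

namespace Vale.Agent.H29.CR

open SimpleGraph

variable {V : Type*} [DecidableEq V]

/-- A clique with at least `m ≥ 3` vertices contains a cycle of length `m`. -/
theorem hasCycle_of_clique (G : SimpleGraph V) (S : Finset V) (hS : G.IsClique (S : Set V))
    (m : ℕ) (h3 : 3 ≤ m) (hm : m ≤ S.card) : HasCycle G m := by
  obtain ⟨a, ha, a', ha', hne⟩ := Finset.one_lt_card.1 (by omega : 1 < S.card)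
  obtain ⟨l, hl, hnd, hlen, _, hhead, hlast, hch⟩ :=
    exists_clique_list G S hS ha ha' hne m (by omega) hm
  have hcl : G.Adj (l.getLast hl) (l.head hl) := by
    rw [hhead, hlast]
    exact hS (Finset.mem_coe.2 ha') (Finset.mem_coe.2 ha) hne.symm
  have hc := hasCycle_of_list G l hl hnd hch hcl (by omega)
  rw [hlen] at hc
  exact hc

/-- Two disjoint cliques joined by two vertex-disjoint edges contain cycles of all lengths
`4 ≤ m ≤ |S| + |T|`. -/
theorem hasCycle_two_cliques (G : SimpleGraph V) (S T : Finset V)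
    (hS : G.IsClique (S : Set V)) (hT : G.IsClique (T : Set V)) (hST : Disjoint S T)
    {a a' b b' : V} (ha : a ∈ S) (ha' : a' ∈ S) (hb : b ∈ T) (hb' : b' ∈ T)
    (haa : a ≠ a') (hbb : b ≠ b') (hab : G.Adj a b) (hab' : G.Adj a' b')
    (m : ℕ) (h4 : 4 ≤ m) (hm : m ≤ S.card + T.card) : HasCycle G m := by
  have hT2 : 2 ≤ T.card := Finset.one_lt_card.2 ⟨b, hb, b', hb', hbb⟩
  have hS2 : 2 ≤ S.card := Finset.one_lt_card.2 ⟨a, ha, a', ha', haa⟩
  obtain ⟨t, ht⟩ : ∃ t : ℕ, t = min T.card (m - 2) := ⟨_, rfl⟩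
  have ht1 : t ≤ T.card := by rw [ht]; exact min_le_left _ _
  have ht2 : t ≤ m - 2 := by rw [ht]; exact min_le_right _ _
  have ht3 : 2 ≤ t := by rw [ht]; exact le_min hT2 (by omega)
  have ht4 : m - t ≤ S.card := by
    rcases min_choice T.card (m - 2) with h | h
    · rw [h] at ht
      omega
    · rw [h] at ht
      omega
  obtain ⟨L, hL, hnd, hlen, hmem, hhead, hlast, hch⟩ :=
    exists_clique_list G T hT hb hb' hbb t ht3 ht1
  have hdisj : ∀ x ∈ L, x ∉ S := fun x hx => Finset.disjoint_right.1 hST (hmem x hx)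
  have h1 : G.Adj a (L.head hL) := by rw [hhead]; exact hab
  have h2 : G.Adj (L.getLast hL) a' := by rw [hlast]; exact hab'.symm
  have hc := hasCycle_necklace G S hS ha ha' haa L hL hnd hdisj hch h1 h2 (m - t)
    (by omega) ht4
  have hmt : m - t + L.length = m := by omega
  rw [hmt] at hc
  exact hc

/-- A vertex outside a clique `T` with two neighbours in `T` gives cycles of all lengths
`3 ≤ m ≤ |T| + 1`. -/
theorem hasCycle_hub (G : SimpleGraph V) (T : Finset V) (hT : G.IsClique (T : Set V))
    {u b b' : V} (hu : u ∉ T) (hb : b ∈ T) (hb' : b' ∈ T) (hbb : b ≠ b')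
    (hub : G.Adj u b) (hub' : G.Adj u b') (m : ℕ) (h3 : 3 ≤ m) (hm : m ≤ T.card + 1) :
    HasCycle G m := by
  have hL : [u] ≠ [] := List.cons_ne_nil _ _
  have hdisj : ∀ x ∈ [u], x ∉ T := by
    intro x hx
    rw [List.mem_singleton] at hx
    rw [hx]
    exact hu
  have h1 : G.Adj b ([u].head hL) := hub.symm
  have h2 : G.Adj ([u].getLast hL) b' := hub'
  have hc := hasCycle_necklace G T hT hb hb' hbb [u] hL (List.nodup_singleton u) hdisj
    (List.isChain_singleton u) h1 h2 (m - 1) (by omega) (by omega)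
  have hmt : m - 1 + [u].length = m := by
    rw [List.length_singleton]
    omega
  rw [hmt] at hc
  exact hc

end Vale.Agent.H29.CR
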