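import Vale.Agent.H29.CR.CycleList

/-!
# Further cycle constructions (all via the necklace lemma `hasCycle_necklace`)

Proof sketches.
* `hasCycle_three`: necklace lemma for the clique `S`, `a`, `a'` and the outside list
  `L = [b, c, c']` if `b = b'` (then `s = m - 3`), `L = [b, b', c, c']` if `b ≠ b'`
  (then `s = m - 4`); `b ~ b'` and `c ~ c'` hold inside the cliques `T` and `R`.
* `hasCycle_two_hubs_path`: necklace lemma for the clique `S.erase u`, `a = w'`, `a' = w`,
  `L = [y', u, y]`, `s = S.card - 1`.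
* `hasCycle_two_hubs_disj`: necklace lemma for the clique `S.erase w` minus `u2`, `a = u`,
  `a' = z`, `L = [y, w, u2, y2]`, `s = S.card - 2` (`w ~ u2` holds inside the clique `S`).
-/

namespace Vale.Agent.H29.CR

open SimpleGraph

variable {V : Type*} [DecidableEq V]

/-- Three pairwise disjoint cliques `S, T, R` joined cyclically by edges `a b`, `b' c`, `c' a'`
with `a ≠ a'` in `S` and `c ≠ c'` in `R` (and `b, b'` in `T`, possibly equal) contain cycles of
all lengths `6 ≤ m ≤ |S| + 3`. -/
theorem hasCycle_three (G : SimpleGraph V) (S T R : Finset V)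
    (hS : G.IsClique (S : Set V)) (hT : G.IsClique (T : Set V)) (hR : G.IsClique (R : Set V))
    (hST : Disjoint S T) (hSR : Disjoint S R) (hTR : Disjoint T R)
    {a a' b b' c c' : V} (ha : a ∈ S) (ha' : a' ∈ S) (hb : b ∈ T) (hb' : b' ∈ T)
    (hc : c ∈ R) (hc' : c' ∈ R) (haa : a ≠ a') (hcc : c ≠ c')
    (hab : G.Adj a b) (hbc : G.Adj b' c) (hca : G.Adj c' a')
    (m : ℕ) (h6 : 6 ≤ m) (hm : m ≤ S.card + 3) : HasCycle G m := by
  have hbS : b ∉ S := Finset.disjoint_right.1 hST hb
  have hb'S : b' ∉ S := Finset.disjoint_right.1 hST hb'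
  have hcS : c ∉ S := Finset.disjoint_right.1 hSR hc
  have hc'S : c' ∉ S := Finset.disjoint_right.1 hSR hc'
  have hcT : c ∉ T := Finset.disjoint_right.1 hTR hc
  have hc'T : c' ∉ T := Finset.disjoint_right.1 hTR hc'
  have hbc1 : b ≠ c := fun h => hcT (h ▸ hb)
  have hbc2 : b ≠ c' := fun h => hc'T (h ▸ hb)
  have hbc3 : b' ≠ c := fun h => hcT (h ▸ hb')
  have hbc4 : b' ≠ c' := fun h => hc'T (h ▸ hb')
  have hccadj : G.Adj c c' := hR (Finset.mem_coe.2 hc) (Finset.mem_coe.2 hc') hcc
  by_cases hbb : b = b'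
  · subst hbb
    have hL : [b, c, c'] ≠ [] := by simp
    have hnd : [b, c, c'].Nodup := by simp [hbc1, hbc2, hcc]
    have hdisj : ∀ x ∈ [b, c, c'], x ∉ S := by
      intro x hx
      simp only [List.mem_cons, List.not_mem_nil, or_false] at hx
      rcases hx with rfl | rfl | rfl
      · exact hbS
      · exact hcS
      · exact hc'S
    have hch : [b, c, c'].IsChain G.Adj := by
      simp only [List.isChain_cons_cons, List.isChain_singleton, and_true]
      exact ⟨hbc, hccadj⟩
    have h := hasCycle_necklace G S hS ha ha' haa [b, c, c'] hL hnd hdisj hch hab hca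
      (m - 3) (by omega) (by omega)
    have e : m - 3 + [b, c, c'].length = m := by
      simp only [List.length_cons, List.length_nil]
      omega
    rw [e] at h
    exact h
  · have hbbadj : G.Adj b b' := hT (Finset.mem_coe.2 hb) (Finset.mem_coe.2 hb') hbb
    have hL : [b, b', c, c'] ≠ [] := by simp
    have hnd : [b, b', c, c'].Nodup := by simp [hbb, hbc1, hbc2, hbc3, hbc4, hcc]
    have hdisj : ∀ x ∈ [b, b', c, c'], x ∉ S := by
      intro x hx
      simp only [List.mem_cons, List.not_mem_nil, or_false] at hx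
      rcases hx with rfl | rfl | rfl | rfl
      · exact hbS
      · exact hb'S
      · exact hcS
      · exact hc'S
    have hch : [b, b', c, c'].IsChain G.Adj := by
      simp only [List.isChain_cons_cons, List.isChain_singleton, and_true]
      exact ⟨hbbadj, hbc, hccadj⟩
    have h := hasCycle_necklace G S hS ha ha' haa [b, b', c, c'] hL hnd hdisj hch hab hca
      (m - 4) (by omega) (by omega)
    have e : m - 4 + [b, b', c, c'].length = m := by
      simp only [List.length_cons, List.length_nil]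
      omega
    rw [e] at h
    exact h

/-- Two vertices `y, y'` outside a clique `S`, both adjacent to `u ∈ S`, with further neighbours
`w ≠ w'` in `S`, give a cycle of length `|S| + 2`. -/
theorem hasCycle_two_hubs_path (G : SimpleGraph V) (S : Finset V) (hS : G.IsClique (S : Set V))
    {u w w' y y' : V} (hu : u ∈ S) (hw : w ∈ S) (hw' : w' ∈ S)
    (huw : u ≠ w) (huw' : u ≠ w') (hww' : w ≠ w') (hy : y ∉ S) (hy' : y' ∉ S) (hyy : y ≠ y')
    (h1 : G.Adj y u) (h2 : G.Adj y w) (h3 : G.Adj y' u) (h4 : G.Adj y' w') :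
    HasCycle G (S.card + 2) := by
  have hcl : G.IsClique ((S.erase u : Finset V) : Set V) :=
    hS.subset (Finset.coe_subset.2 (Finset.erase_subset u S))
  have hwE : w ∈ S.erase u := Finset.mem_erase.2 ⟨huw.symm, hw⟩
  have hw'E : w' ∈ S.erase u := Finset.mem_erase.2 ⟨huw'.symm, hw'⟩
  have hyu : y ≠ u := fun h => hy (h ▸ hu)
  have hy'u : y' ≠ u := fun h => hy' (h ▸ hu)
  have hL : [y', u, y] ≠ [] := by simp
  have hnd : [y', u, y].Nodup := by simp [hy'u, hyy.symm, hyu.symm]
  have hdisj : ∀ x ∈ [y', u, y], x ∉ S.erase u := by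
    intro x hx
    simp only [List.mem_cons, List.not_mem_nil, or_false] at hx
    rcases hx with rfl | rfl | rfl
    · exact fun h => hy' (Finset.mem_of_mem_erase h)
    · exact Finset.notMem_erase _ S
    · exact fun h => hy (Finset.mem_of_mem_erase h)
  have hch : [y', u, y].IsChain G.Adj := by
    simp only [List.isChain_cons_cons, List.isChain_singleton, and_true]
    exact ⟨h3, h1.symm⟩
  have h2c : 2 ≤ (S.erase u).card := Finset.one_lt_card.2 ⟨w, hwE, w', hw'E, hww'⟩
  have h := hasCycle_necklace G (S.erase u) hcl hw'E hwE hww'.symm [y', u, y] hL hnd hdisj hch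
    h4.symm h2 (S.erase u).card h2c le_rfl
  have hc1 : (S.erase u).card + 1 = S.card := Finset.card_erase_add_one hu
  have e : (S.erase u).card + [y', u, y].length = S.card + 2 := by
    simp only [List.length_cons, List.length_nil]
    omega
  rw [e] at h
  exact h

/-- Two vertices `y, y2` outside a clique `S` with disjoint pairs of neighbours `{u, w}` and
`{u2, z}` in `S` give a cycle of length `|S| + 2`. -/
theorem hasCycle_two_hubs_disj (G : SimpleGraph V) (S : Finset V) (hS : G.IsClique (S : Set V))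
    {u w u2 z y y2 : V} (hu : u ∈ S) (hw : w ∈ S) (hu2 : u2 ∈ S) (hz : z ∈ S)
    (huw : u ≠ w) (huu2 : u ≠ u2) (huz : u ≠ z) (hwu2 : w ≠ u2) (hwz : w ≠ z) (hu2z : u2 ≠ z)
    (hy : y ∉ S) (hy2 : y2 ∉ S) (hyy : y ≠ y2)
    (h1 : G.Adj y u) (h2 : G.Adj y w) (h3 : G.Adj y2 u2) (h4 : G.Adj y2 z) :
    HasCycle G (S.card + 2) := by
  have hcl : G.IsClique (((S.erase w).erase u2 : Finset V) : Set V) :=
    hS.subset (Finset.coe_subset.2 ((Finset.erase_subset u2 _).trans (Finset.erase_subset w S)))
  have huE : u ∈ (S.erase w).erase u2 :=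
    Finset.mem_erase.2 ⟨huu2, Finset.mem_erase.2 ⟨huw, hu⟩⟩
  have hzE : z ∈ (S.erase w).erase u2 :=
    Finset.mem_erase.2 ⟨hu2z.symm, Finset.mem_erase.2 ⟨hwz.symm, hz⟩⟩
  have hyw : y ≠ w := fun h => hy (h ▸ hw)
  have hyu2 : y ≠ u2 := fun h => hy (h ▸ hu2)
  have hy2w : y2 ≠ w := fun h => hy2 (h ▸ hw)
  have hy2u2 : y2 ≠ u2 := fun h => hy2 (h ▸ hu2)
  have hwu2adj : G.Adj w u2 := hS (Finset.mem_coe.2 hw) (Finset.mem_coe.2 hu2) hwu2
  have hL : [y, w, u2, y2] ≠ [] := by simp
  have hnd : [y, w, u2, y2].Nodup := by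
    simp [hyw, hyu2, hyy, hwu2, hy2w.symm, hy2u2.symm]
  have hdisj : ∀ x ∈ [y, w, u2, y2], x ∉ (S.erase w).erase u2 := by
    intro x hx
    simp only [List.mem_cons, List.not_mem_nil, or_false] at hx
    rcases hx with rfl | rfl | rfl | rfl
    · exact fun h => hy (Finset.mem_of_mem_erase (Finset.mem_of_mem_erase h))
    · exact fun h => Finset.notMem_erase _ S (Finset.mem_of_mem_erase h)
    · exact Finset.notMem_erase _ _
    · exact fun h => hy2 (Finset.mem_of_mem_erase (Finset.mem_of_mem_erase h))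
  have hch : [y, w, u2, y2].IsChain G.Adj := by
    simp only [List.isChain_cons_cons, List.isChain_singleton, and_true]
    exact ⟨h2, hwu2adj, h3.symm⟩
  have h2c : 2 ≤ ((S.erase w).erase u2).card := Finset.one_lt_card.2 ⟨u, huE, z, hzE, huz⟩
  have h := hasCycle_necklace G ((S.erase w).erase u2) hcl huE hzE huz [y, w, u2, y2] hL hnd
    hdisj hch h1.symm h4 ((S.erase w).erase u2).card h2c le_rfl
  have hc1 : (S.erase w).card + 1 = S.card := Finset.card_erase_add_one hw
  have hc2 : ((S.erase w).erase u2).card + 1 = (S.erase w).card :=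
    Finset.card_erase_add_one (Finset.mem_erase.2 ⟨hwu2.symm, hu2⟩)
  have e : ((S.erase w).erase u2).card + [y, w, u2, y2].length = S.card + 2 := by
    simp only [List.length_cons, List.length_nil]
    omega
  rw [e] at h
  exact h

end Vale.Agent.H29.CR
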