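import Mathlib

/-!
# Cycle-complete Ramsey numbers on colourings with an `n`-colourable blue graph: definitions

`HasCycle G m`: the graph `G` contains a cycle with exactly `m` vertices.
`cls c W i`: the vertices of `W` of colour `i`.
`Cfg G m n c W`: the standing assumptions of the proof (colour classes of `c` inside `W` are
cliques of `G`, at most `n` colours occur, `W` has more than `(m-1)(n-1)` vertices, `G` has no
cycle of length `m`, and `6 ≤ m`).
-/

namespace Vale.Agent.H29.CR

open SimpleGraph

variable {V : Type*} {ι : Type*}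

/-- `G` contains a cycle with exactly `m` vertices. -/
def HasCycle (G : SimpleGraph V) (m : ℕ) : Prop :=
  ∃ (v : V) (p : G.Walk v v), p.IsCycle ∧ p.length = m

/-- The colour class of `i` inside `W`. -/
def cls [DecidableEq ι] (c : V → ι) (W : Finset V) (i : ι) : Finset V :=
  W.filter (fun v => c v = i)

/-- Standing assumptions: inside `W` the colour classes of `c` are cliques of `G`, at most `n`
colours occur on `W`, `W` has more than `(m-1)(n-1)` vertices, `G` has no cycle of length `m`. -/
structure Cfg [DecidableEq V] [DecidableEq ι] (G : SimpleGraph V) (m n : ℕ) (c : V → ι)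
    (W : Finset V) : Prop where
  adj : ∀ u ∈ W, ∀ v ∈ W, u ≠ v → c u = c v → G.Adj u v
  nocyc : ¬ HasCycle G m
  big : (m - 1) * (n - 1) < W.card
  cols : (W.image c).card ≤ n
  hm : 6 ≤ m

/-- `u` has two distinct neighbours of colour `j` in `W`. -/
def Hub (G : SimpleGraph V) (c : V → ι) (W : Finset V) (u : V) (j : ι) : Prop :=
  ∃ b ∈ W, ∃ b' ∈ W, b ≠ b' ∧ c b = j ∧ c b' = j ∧ G.Adj u b ∧ G.Adj u b'

/-- The colour class of `i` has at most `n - 1` vertices. -/
def Small [DecidableEq ι] (c : V → ι) (W : Finset V) (n : ℕ) (i : ι) : Prop :=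
  (cls c W i).card + 1 ≤ n

/-- For a single edge between the classes `i` and `j`, the end in class `i` is designated:
the class that is not small is preferred, ties are broken by the order of the colours. -/
def Pref [LinearOrder ι] (c : V → ι) (W : Finset V) (n : ℕ) (i j : ι) : Prop :=
  (Small c W n j ∧ ¬ Small c W n i) ∨ ((Small c W n i ↔ Small c W n j) ∧ j < i)

/-- `v` witnesses that `u` is a designated centre: `v` is a neighbour of `u` of another colour,
and either `u` has two neighbours of the colour of `v`, or `v` does not have two neighbours of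
the colour of `u` and the class of `u` is preferred. -/
def BadW [LinearOrder ι] (G : SimpleGraph V) (c : V → ι) (W : Finset V) (n : ℕ) (u v : V) :
    Prop :=
  v ∈ W ∧ G.Adj u v ∧ c v ≠ c u ∧
    (Hub G c W u (c v) ∨ (¬ Hub G c W v (c u) ∧ Pref c W n (c u) (c v)))

/-- `u` is a designated centre. -/
def Bad [LinearOrder ι] (G : SimpleGraph V) (c : V → ι) (W : Finset V) (n : ℕ) (u : V) : Prop :=
  ∃ v, BadW G c W n u v

/-- `x` is a pure leaf of the class `i`: every neighbour of `x` of another colour has a second
neighbour in the class `i`. -/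
def Pure [DecidableEq ι] (G : SimpleGraph V) (c : V → ι) (W : Finset V) (i : ι) (x : V) : Prop :=
  ∀ y ∈ W, c y ≠ i → G.Adj x y → ∃ x' ∈ cls c W i, x' ≠ x ∧ G.Adj x' y

end Vale.Agent.H29.CR
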