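import Vale.Agent.H29.CR.Classes

/-!
# The small colour class has a vertex that is not designated (case `2n ≤ m + 1`)

Proof sketch. Suppose every vertex `x` of the class of `i` is `Bad`, with witness `v`.
(1) The colour `c v ≠ i` is not `Small`: two different small colours `i, j` on `W` would give
`(cls i).card + (cls j).card ≤ 2n - 2 < m`, against `Cfg.pair`. Hence `Pref i (c v)` is false and
`Hub G c W x (c v)` holds.
(2) So every `x` in the class is a hub towards some colour `j x ∈ (W.image c).erase i`, and `j`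
is injective on the class: if `x ≠ x'` are hubs towards the same colour, take neighbours `b` of
`x` and `b'` of `x'` of that colour with `b ≠ b'` (possible since each has two); this contradicts
`Cfg.star`.
(3) By `Cfg.hub` each class `j x` has at most `m - 2` vertices; every class has at most `m - 1`
(`Cfg.cls_card_le`). With `Finset.card_eq_sum_card_image c W` and `Cfg.cols_eq`:
`W.card = (cls i).card + ∑ over the other n - 1 colours ≤ (cls i).card + (n-1)(m-1) - (cls i).card
= (n-1)(m-1)`, contradicting `h.big`.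
-/

namespace Vale.Agent.H29.CR

open SimpleGraph

variable {V : Type*} [DecidableEq V] {ι : Type*} [LinearOrder ι]
variable {G : SimpleGraph V} {m n : ℕ} {c : V → ι} {W : Finset V}

/-- If `2n ≤ m + 1`, a small colour class contains a vertex that is not designated. -/
theorem Cfg.exists_good_small (h : Cfg G m n c W) (hmn : 2 * n ≤ m + 1) {i : ι}
    (hi : i ∈ W.image c) (hsm : Small c W n i) : ∃ x ∈ cls c W i, ¬ Bad G c W n x := by
  by_contra hcon
  have hbad : ∀ x ∈ cls c W i, Bad G c W n x := by
    intro x hx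
    by_contra hx'
    exact hcon ⟨x, hx, hx'⟩
  have hhub : ∀ x ∈ cls c W i, ∃ k, k ∈ (W.image c).erase i ∧ Hub G c W x k := by
    intro x hx
    obtain ⟨v, hvW, hadj, hcv, hor⟩ := hbad x hx
    have hcx : c x = i := (mem_cls.mp hx).2
    have hkmem : c v ∈ W.image c := Finset.mem_image_of_mem c hvW
    have hne : c v ≠ i := by rw [← hcx]; exact hcv
    have hnsm : ¬ Small c W n (c v) := by
      intro hs
      have hp := h.pair hi hkmem (Ne.symm hne)
      unfold Small at hsm hs
      omega
    refine ⟨c v, Finset.mem_erase.mpr ⟨hne, hkmem⟩, ?_⟩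
    rcases hor with hH | ⟨_, hP⟩
    · exact hH
    · exfalso
      rw [hcx] at hP
      rcases hP with ⟨hs, _⟩ | ⟨hiff, _⟩
      · exact hnsm hs
      · exact hnsm (hiff.mp hsm)
  have hne : Nonempty ι := ⟨i⟩
  choose! j hjmem hjhub using hhub
  have hinj : Set.InjOn j (cls c W i : Set V) := by
    intro x hx x' hx' hjj
    by_contra hxx
    have hxc : x ∈ cls c W i := Finset.mem_coe.mp hx
    have hxc' : x' ∈ cls c W i := Finset.mem_coe.mp hx'
    have hxm := mem_cls.mp hxc
    have hxm' := mem_cls.mp hxc'
    obtain ⟨b, hbW, b', hb'W, hbb, hcb, hcb', hxb, hxb'⟩ := hjhub x hxc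
    obtain ⟨d, hdW, d', hd'W, hdd, hcd, hcd', hxd, hxd'⟩ := hjhub x' hxc'
    have hjne : j x ≠ i := (Finset.mem_erase.mp (hjmem x hxc)).1
    have hcab : c x ≠ c b := by rw [hxm.2, hcb]; exact Ne.symm hjne
    by_cases hbd : b = d
    · have hbd' : b ≠ d' := by rw [hbd]; exact hdd
      rcases h.star hxm.1 hxm'.1 hbW hd'W (by rw [hxm.2, hxm'.2]) (by rw [hcb, hcd', hjj])
        hcab hxb hxd' with e | e
      · exact hxx e
      · exact hbd' e
    · rcases h.star hxm.1 hxm'.1 hbW hdW (by rw [hxm.2, hxm'.2]) (by rw [hcb, hcd, hjj])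
        hcab hxb hxd with e | e
      · exact hxx e
      · exact hbd e
  have hJE : (cls c W i).image j ⊆ (W.image c).erase i := by
    intro k hk
    obtain ⟨x, hx, rfl⟩ := Finset.mem_image.mp hk
    exact hjmem x hx
  have hJcard : ((cls c W i).image j).card = (cls c W i).card :=
    Finset.card_image_of_injOn hinj
  have hEcard : ((W.image c).erase i).card = n - 1 := by
    rw [Finset.card_erase_of_mem hi, h.cols_eq]
  have hbound : ∀ k ∈ (W.image c).erase i,
      (cls c W k).card + (if k ∈ (cls c W i).image j then 1 else 0) ≤ m - 1 := by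
    intro k hk
    by_cases hkJ : k ∈ (cls c W i).image j
    · rw [if_pos hkJ]
      obtain ⟨x, hx, rfl⟩ := Finset.mem_image.mp hkJ
      obtain ⟨b, hbW, b', hb'W, hbb, hcb, hcb', hxb, hxb'⟩ := hjhub x hx
      have hxm := mem_cls.mp hx
      have hjne : j x ≠ i := (Finset.mem_erase.mp (hjmem x hx)).1
      have hh := h.hub hxm.1 hbW hb'W hbb (by rw [hcb, hcb'])
        (by rw [hxm.2, hcb]; exact Ne.symm hjne) hxb hxb'
      rw [hcb] at hh
      omega
    · rw [if_neg hkJ]
      have hh := h.cls_card_le k
      omega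
  have hsum : ∑ k ∈ (W.image c).erase i,
      ((cls c W k).card + (if k ∈ (cls c W i).image j then 1 else 0)) ≤ (n - 1) * (m - 1) := by
    calc _ ≤ ∑ _k ∈ (W.image c).erase i, (m - 1) := Finset.sum_le_sum hbound
      _ = (n - 1) * (m - 1) := by rw [Finset.sum_const, hEcard, smul_eq_mul]
  have hJsum : ∑ k ∈ (W.image c).erase i, (if k ∈ (cls c W i).image j then 1 else 0)
      = ((cls c W i).image j).card := by
    rw [← Finset.sum_filter, Finset.sum_const, smul_eq_mul, mul_one]
    congr 1
    ext k
    simp only [Finset.mem_filter]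
    exact ⟨fun hk => hk.2, fun hk => ⟨hJE hk, hk⟩⟩
  have hW : W.card = (cls c W i).card + ∑ k ∈ (W.image c).erase i, (cls c W k).card := by
    rw [Finset.card_eq_sum_card_image c W, ← Finset.add_sum_erase (W.image c) _ hi]
    rfl
  have hbig := h.big
  rw [Finset.sum_add_distrib, hJsum, hJcard] at hsum
  have hcomm : (m - 1) * (n - 1) = (n - 1) * (m - 1) := Nat.mul_comm _ _
  omega

end Vale.Agent.H29.CR
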