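import Vale.Agent.H29.CR.DirectBad
import Vale.Agent.H29.CR.DirectSmall

/-!
# The case `m ≥ 2n - 1`: an independent transversal exists

Proof sketch. For every colour `i` occurring on `W` pick a vertex `x i` of colour `i` that is not
`Bad`: `Cfg.exists_good_small` if the class is `Small`, `Cfg.exists_good_big` otherwise. The set
of the `x i` has `n` elements (`Cfg.cols_eq`, the `x i` have different colours) and is
independent by `Cfg.bad_edge`.
-/

namespace Vale.Agent.H29.CR

open SimpleGraph

variable {V : Type*} [DecidableEq V] {ι : Type*} [LinearOrder ι]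
variable {G : SimpleGraph V} {m n : ℕ} {c : V → ι} {W : Finset V}

/-- If `2n ≤ m + 1`, the standing assumptions give an independent set of `n` vertices. -/
theorem Cfg.direct (h : Cfg G m n c W) (hmn : 2 * n ≤ m + 1) :
    ∃ s ⊆ W, G.IsIndepSet (s : Set V) ∧ s.card = n := by
  classical
  have hex : ∀ i, i ∈ W.image c → ∃ x, x ∈ cls c W i ∧ ¬ Bad G c W n x := by
    intro i hi
    by_cases hsm : Small c W n i
    · obtain ⟨x, hx, hb⟩ := h.exists_good_small hmn hi hsm
      exact ⟨x, hx, hb⟩
    · have hbig : n ≤ (cls c W i).card := by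
        unfold Small at hsm
        omega
      obtain ⟨x, hx, hb⟩ := h.exists_good_big hbig
      exact ⟨x, hx, hb⟩
  choose x hx using hex
  have hcx : ∀ i (hi : i ∈ W.image c), c (x i hi) = i :=
    fun i hi => (mem_cls.1 (hx i hi).1).2
  have hWx : ∀ i (hi : i ∈ W.image c), x i hi ∈ W :=
    fun i hi => (mem_cls.1 (hx i hi).1).1
  refine ⟨(W.image c).attach.image (fun i => x i.1 i.2), ?_, ?_, ?_⟩
  · intro v hv
    obtain ⟨i, -, rfl⟩ := Finset.mem_image.1 hv
    exact hWx i.1 i.2
  · intro u hu v hv huv hadj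
    rw [Finset.mem_coe] at hu hv
    obtain ⟨i, -, rfl⟩ := Finset.mem_image.1 hu
    obtain ⟨j, -, rfl⟩ := Finset.mem_image.1 hv
    have hcne : c (x i.1 i.2) ≠ c (x j.1 j.2) := by
      rw [hcx, hcx]
      intro hij
      apply huv
      have hij' : i = j := Subtype.ext hij
      rw [hij']
    rcases h.bad_edge (hWx i.1 i.2) (hWx j.1 j.2) hcne hadj with hb | hb
    · exact (hx i.1 i.2).2 hb
    · exact (hx j.1 j.2).2 hb
  · rw [Finset.card_image_of_injective, Finset.card_attach, h.cols_eq]
    intro i j hij
    have hc : c (x i.1 i.2) = c (x j.1 j.2) := congrArg c hij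
    rw [hcx, hcx] at hc
    exact Subtype.ext hc

end Vale.Agent.H29.CR
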