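import Vale.Agent.H29.CR.Classes

/-!
# Designated centres (`Bad` vertices): every cross edge has one, big classes have a good vertex

Proof sketches.
* `Cfg.bad_edge`: if `u` is a `Hub` towards the colour of `v`, `v` witnesses `Bad u`; else if `v`
  is a `Hub` towards the colour of `u`, `u` witnesses `Bad v`; else one of `Pref (c u) (c v)`,
  `Pref (c v) (c u)` holds (case analysis on `Small`, then trichotomy of `<`).
* `Cfg.badW_inj`: suppose `u ≠ u'`. By `Cfg.star` (on the edges `u v`, `u' v'`) `v = v'`, so `v`
  has the two neighbours `u ≠ u'` of colour `c u`, i.e. `Hub v (c u)`; hence the second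
  alternative of `BadW u v` fails and `Hub u (c v)` holds: `u` has two neighbours `b ≠ b'` of
  colour `c v`; one of them differs from `v`, and `Cfg.star` applied to that edge and `u' v`
  gives a contradiction.
* `Cfg.exists_good_big`: otherwise every vertex of the class is `Bad`; choosing witnesses gives
  a map from the class into `(W.image c).erase i` (colour of the witness) which is injective by
  `Cfg.badW_inj`; but `(W.image c).erase i` has at most `n - 1` elements (`Cfg.cols_eq`; if `i`
  does not occur on `W` the class is empty and `n = 0`, which contradicts `h.big` and `h.cols`).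
-/

namespace Vale.Agent.H29.CR

open SimpleGraph

variable {V : Type*} [DecidableEq V] {ι : Type*} [LinearOrder ι]
variable {G : SimpleGraph V} {m n : ℕ} {c : V → ι} {W : Finset V}

/-- Every edge between different colour classes has a designated end. -/
theorem Cfg.bad_edge (h : Cfg G m n c W) {u v : V} (hu : u ∈ W) (hv : v ∈ W)
    (hcuv : c u ≠ c v) (hadj : G.Adj u v) : Bad G c W n u ∨ Bad G c W n v := by
  classical
  by_cases hu1 : Hub G c W u (c v)
  · exact Or.inl ⟨v, hv, hadj, fun e => hcuv e.symm, Or.inl hu1⟩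
  by_cases hv1 : Hub G c W v (c u)
  · exact Or.inr ⟨u, hu, hadj.symm, hcuv, Or.inl hv1⟩
  have hpref : Pref c W n (c u) (c v) ∨ Pref c W n (c v) (c u) := by
    by_cases hsu : Small c W n (c u)
    · by_cases hsv : Small c W n (c v)
      · rcases lt_or_gt_of_ne hcuv with hlt | hlt
        · exact Or.inr (Or.inr ⟨⟨fun _ => hsu, fun _ => hsv⟩, hlt⟩)
        · exact Or.inl (Or.inr ⟨⟨fun _ => hsv, fun _ => hsu⟩, hlt⟩)
      · exact Or.inr (Or.inl ⟨hsu, hsv⟩)
    · by_cases hsv : Small c W n (c v)
      · exact Or.inl (Or.inl ⟨hsv, hsu⟩)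
      · rcases lt_or_gt_of_ne hcuv with hlt | hlt
        · exact Or.inr (Or.inr ⟨⟨fun a => absurd a hsv, fun a => absurd a hsu⟩, hlt⟩)
        · exact Or.inl (Or.inr ⟨⟨fun a => absurd a hsu, fun a => absurd a hsv⟩, hlt⟩)
  rcases hpref with hp | hp
  · exact Or.inl ⟨v, hv, hadj, fun e => hcuv e.symm, Or.inr ⟨hv1, hp⟩⟩
  · exact Or.inr ⟨u, hu, hadj.symm, hcuv, Or.inr ⟨hu1, hp⟩⟩

/-- Two designated vertices of the same colour cannot have witnesses of the same colour. -/
theorem Cfg.badW_inj (h : Cfg G m n c W) {u u' v v' : V} (hu : u ∈ W) (hu' : u' ∈ W)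
    (hcu : c u = c u') (hcv : c v = c v') (hb : BadW G c W n u v) (hb' : BadW G c W n u' v') :
    u = u' := by
  classical
  by_contra hne
  obtain ⟨hvW, hadj, hcvu, halt⟩ := hb
  obtain ⟨hvW', hadj', hcvu', _⟩ := hb'
  have hcuv : c u ≠ c v := fun e => hcvu e.symm
  have hvv : v = v' := by
    rcases h.star hu hu' hvW hvW' hcu hcv hcuv hadj hadj' with h1 | h1
    · exact absurd h1 hne
    · exact h1
  subst hvv
  have hhub : Hub G c W v (c u) :=
    ⟨u, hu, u', hu', hne, rfl, hcu.symm, hadj.symm, hadj'.symm⟩
  have hhubu : Hub G c W u (c v) := by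
    rcases halt with h1 | h1
    · exact h1
    · exact absurd hhub h1.1
  obtain ⟨b, hbW, b', hbW', hbb, hcb, hcb', hub, hub'⟩ := hhubu
  by_cases hbv : b = v
  · have hb'v : b' ≠ v := fun e => hbb (hbv.trans e.symm)
    rcases h.star hu hu' hbW' hvW hcu hcb' (fun e => hcuv (e.trans hcb')) hub' hadj' with h1 | h1
    · exact hne h1
    · exact hb'v h1
  · rcases h.star hu hu' hbW hvW hcu hcb (fun e => hcuv (e.trans hcb)) hub hadj' with h1 | h1
    · exact hne h1
    · exact hbv h1

/-- A colour class with at least `n` vertices contains a vertex that is not designated. -/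
theorem Cfg.exists_good_big (h : Cfg G m n c W) {i : ι} (hbig : n ≤ (cls c W i).card) :
    ∃ x ∈ cls c W i, ¬ Bad G c W n x := by
  classical
  by_contra hcon
  push Not at hcon
  let w : V → V := fun x => if hx : x ∈ cls c W i then Classical.choose (hcon x hx) else x
  have hw : ∀ x ∈ cls c W i, BadW G c W n x (w x) := by
    intro x hx
    have h1 : w x = Classical.choose (hcon x hx) := dif_pos hx
    rw [h1]
    exact Classical.choose_spec (hcon x hx)
  have hmaps : ∀ x ∈ cls c W i, c (w x) ∈ (W.image c).erase i := by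
    intro x hx
    obtain ⟨hwW, _, hcne, _⟩ := hw x hx
    have hcx : c x = i := (mem_cls.mp hx).2
    rw [Finset.mem_erase]
    exact ⟨fun e => hcne (e.trans hcx.symm), Finset.mem_image_of_mem c hwW⟩
  have hinj : Set.InjOn (fun x => c (w x)) (cls c W i : Set V) := by
    intro x hx x' hx' hxx
    have hx1 := mem_cls.mp hx
    have hx2 := mem_cls.mp hx'
    exact h.badW_inj hx1.1 hx2.1 (hx1.2.trans hx2.2.symm) hxx (hw x hx) (hw x' hx')
  have hcard : (cls c W i).card ≤ ((W.image c).erase i).card :=
    Finset.card_le_card_of_injOn (fun x => c (w x)) hmaps hinj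
  have hcols := h.cols_eq
  by_cases hi : i ∈ W.image c
  · rw [Finset.card_erase_of_mem hi, hcols] at hcard
    have hnpos : 0 < n := by
      rw [← hcols]
      exact Finset.card_pos.mpr ⟨i, hi⟩
    omega
  · have hempty : (cls c W i).card = 0 := by
      rw [Finset.card_eq_zero, Finset.eq_empty_iff_forall_notMem]
      intro x hx
      have hx1 := mem_cls.mp hx
      exact hi (hx1.2 ▸ Finset.mem_image_of_mem c hx1.1)
    have hn0 : n = 0 := by omega
    rw [hn0] at hcols
    have hW : W.card = 0 := by
      rw [Finset.card_eq_zero] at hcols ⊢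
      exact Finset.image_eq_empty.mp hcols
    have hbig := h.big
    omega

end Vale.Agent.H29.CR
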