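import Vale.Agent.H29.CR.Classes

/-!
# Minimum degree `≥ m - 1` and a full colour class (`m - 1` vertices): the attachment structure

Proof sketch. Let `S = cls c W i`, `S.card = m - 1`.
(a) No vertex `u ∈ W` of another colour has two neighbours in `S` (`Cfg.hub` would give
    `S.card + 2 ≤ m`).
(b) Every `x ∈ S` has a neighbour `y ∈ W` with `c y ≠ i`: `x` has at least `m - 1` neighbours in
    `W` (`hdeg`), and at most `S.card - 1 = m - 2` of them have colour `i`.
(c) For a colour `j ≠ i`, at most one `x ∈ S` has a neighbour of colour `j`: for `x ≠ x'` with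
    neighbours `y, y'` of colour `j`, `Cfg.star` gives `y = y'`, contradicting (a).
(d) Choosing for every `x ∈ S` the colour `f x` of one neighbour as in (b) gives an injective
    map `S → (W.image c).erase i` by (c), so `m - 1 ≤ n - 1` (`Cfg.cols_eq`), hence `m = n` with
    `hnm`, and `f` is a bijection (equal cardinalities). Surjectivity is the second claim.
    Third claim: if `x` had neighbours of two colours `j ≠ j'` (both `≠ i`), pick the one
    different from `f x`, say `j'`; by surjectivity some `x'` has `f x' = j'`, `x' ≠ x`, and then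
    `x, x'` both have neighbours of colour `j'`, contradicting (c).
-/

namespace Vale.Agent.H29.CR

open SimpleGraph

variable {V : Type*} [DecidableEq V] {ι : Type*} [DecidableEq ι]
variable {G : SimpleGraph V} [DecidableRel G.Adj] {m n : ℕ} {c : V → ι} {W : Finset V}

/-- Minimum degree at least `m - 1` and a colour class `i` with `m - 1` vertices: then `m = n`,
every other colour is attached to some vertex of the class, and every vertex of the class has
neighbours of only one other colour. -/
theorem Cfg.full_attach (h : Cfg G m n c W) (hnm : n ≤ m)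
    (hdeg : ∀ v ∈ W, m ≤ (W.filter (fun u => G.Adj v u)).card + 1)
    {i : ι} (hi : i ∈ W.image c) (hq : (cls c W i).card + 1 = m) :
    m = n ∧ (∀ j ∈ W.image c, j ≠ i → ∃ x ∈ cls c W i, ∃ y ∈ W, c y = j ∧ G.Adj x y) ∧
      (∀ x ∈ cls c W i, ∀ y ∈ W, ∀ y' ∈ W, c y ≠ i → c y' ≠ i → G.Adj x y → G.Adj x y' →
        c y = c y') := by
  classical
  set S : Finset V := cls c W i with hS
  obtain ⟨v₀, _, _⟩ := Finset.mem_image.mp hi
  have hne : Nonempty V := ⟨v₀⟩
  -- (a) no vertex of another colour has two neighbours in `S`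
  have ha : ∀ u ∈ W, c u ≠ i → ∀ b ∈ S, ∀ b' ∈ S, G.Adj u b → G.Adj u b' → b = b' := by
    intro u hu hcu b hb b' hb' hub hub'
    by_contra hbb
    have hbW := (mem_cls.mp hb).1
    have hb'W := (mem_cls.mp hb').1
    have hcb : c b = i := (mem_cls.mp hb).2
    have hcb' : c b' = i := (mem_cls.mp hb').2
    have h1 := h.hub hu hbW hb'W hbb (hcb.trans hcb'.symm) (by rw [hcb]; exact hcu) hub hub'
    rw [hcb, ← hS] at h1
    omega
  -- (b) every vertex of `S` has a neighbour of another colour
  have hb : ∀ x ∈ S, ∃ y, y ∈ W ∧ c y ≠ i ∧ G.Adj x y := by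
    intro x hx
    by_contra hcon
    push Not at hcon
    have hxW := (mem_cls.mp hx).1
    have hsub : W.filter (fun u => G.Adj x u) ⊆ S.erase x := by
      intro u hu
      rw [Finset.mem_filter] at hu
      rw [Finset.mem_erase]
      refine ⟨fun hux => (G.ne_of_adj hu.2) hux.symm, ?_⟩
      rw [hS, mem_cls]
      refine ⟨hu.1, ?_⟩
      by_contra hcu
      exact hcon u hu.1 hcu hu.2
    have h1 := Finset.card_le_card hsub
    rw [Finset.card_erase_of_mem hx] at h1
    have h2 := hdeg x hxW
    have h3 : 0 < S.card := Finset.card_pos.mpr ⟨x, hx⟩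
    omega
  -- (c) for a colour `j ≠ i`, at most one vertex of `S` has a neighbour of colour `j`
  have hc : ∀ x ∈ S, ∀ x' ∈ S, ∀ y ∈ W, ∀ y' ∈ W, c y ≠ i → c y = c y' → G.Adj x y →
      G.Adj x' y' → x = x' := by
    intro x hx x' hx' y hy y' hy' hcy hcyy hxy hxy'
    have hxW := (mem_cls.mp hx).1
    have hx'W := (mem_cls.mp hx').1
    have hcx : c x = i := (mem_cls.mp hx).2
    have hcx' : c x' = i := (mem_cls.mp hx').2
    rcases h.star hxW hx'W hy hy' (hcx.trans hcx'.symm) hcyy
        (by rw [hcx]; exact fun h0 => hcy h0.symm) hxy hxy' with h1 | h1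
    · exact h1
    · subst h1
      exact ha y hy hcy x hx x' hx' hxy.symm hxy'.symm
  choose! g hg using hb
  have hgW : ∀ x ∈ S, g x ∈ W := fun x hx => (hg x hx).1
  have hgc : ∀ x ∈ S, c (g x) ≠ i := fun x hx => (hg x hx).2.1
  have hgadj : ∀ x ∈ S, G.Adj x (g x) := fun x hx => (hg x hx).2.2
  have hinj : Set.InjOn (fun x => c (g x)) (S : Set V) := by
    intro x hx x' hx' hxx
    exact hc x hx x' hx' (g x) (hgW x hx) (g x') (hgW x' hx') (hgc x hx) hxx (hgadj x hx)
      (hgadj x' hx')
  have hsub : S.image (fun x => c (g x)) ⊆ (W.image c).erase i := by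
    intro j hj
    obtain ⟨x, hx, rfl⟩ := Finset.mem_image.mp hj
    rw [Finset.mem_erase]
    exact ⟨hgc x hx, Finset.mem_image_of_mem c (hgW x hx)⟩
  have hcardim : (S.image (fun x => c (g x))).card = S.card := Finset.card_image_of_injOn hinj
  have hcarder : ((W.image c).erase i).card = n - 1 := by
    rw [Finset.card_erase_of_mem hi, h.cols_eq]
  have hle : S.card ≤ n - 1 := by
    rw [← hcardim, ← hcarder]
    exact Finset.card_le_card hsub
  have hnpos : 0 < n := by
    rw [← h.cols_eq]
    exact Finset.card_pos.mpr ⟨i, hi⟩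
  have hmn : m = n := by omega
  have himeq : S.image (fun x => c (g x)) = (W.image c).erase i := by
    apply Finset.eq_of_subset_of_card_le hsub
    rw [hcardim, hcarder]
    omega
  -- every colour `j ≠ i` is attached
  have hsurj : ∀ j ∈ W.image c, j ≠ i → ∃ x ∈ S, c (g x) = j := by
    intro j hj hji
    have h1 : j ∈ S.image (fun x => c (g x)) := by
      rw [himeq, Finset.mem_erase]
      exact ⟨hji, hj⟩
    obtain ⟨x, hx, hxj⟩ := Finset.mem_image.mp h1
    exact ⟨x, hx, hxj⟩
  -- every outside neighbour of `x` has the colour of `g x`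
  have hone : ∀ x ∈ S, ∀ y ∈ W, c y ≠ i → G.Adj x y → c y = c (g x) := by
    intro x hx y hy hcy hxy
    obtain ⟨x', hx', hx'j⟩ := hsurj (c y) (Finset.mem_image_of_mem c hy) hcy
    have h1 : x = x' := hc x hx x' hx' y hy (g x') (hgW x' hx') hcy hx'j.symm hxy (hgadj x' hx')
    rw [h1]
    exact hx'j.symm
  refine ⟨hmn, ?_, ?_⟩
  · intro j hj hji
    obtain ⟨x, hx, hxj⟩ := hsurj j hj hji
    exact ⟨x, hx, g x, hgW x hx, hxj, hgadj x hx⟩
  · intro x hx y hy y' hy' hcy hcy' hxy hxy'
    rw [hone x hx y hy hcy hxy, hone x hx y' hy' hcy' hxy']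

end Vale.Agent.H29.CR
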