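import Vale.Agent.H29.CR.Full1
import Vale.Agent.H29.CR.Cycles2

/-!
# Minimum degree `≥ m - 1` and a full colour class: contradiction

Proof sketch. By `Cfg.full_attach` for `i`: `m = n`.
(e) There is a second colour `i' ≠ i` on `W` whose class has `m - 1` vertices: otherwise all
    other classes have at most `m - 2` vertices (`Cfg.cls_card_le`) and
    `W.card ≤ (m-1) + (n-1)(m-2) = (n-1)(m-1)` (as `m = n`), against `h.big`
    (`Finset.card_eq_sum_card_image c W`, `Cfg.cols_eq`).
(f) There is a third colour `j` on `W` (`n = m ≥ 6`).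
(g) `Cfg.full_attach` for `i`: `x ∈ cls i` with a neighbour `y` of colour `i'`, and `xj ∈ cls i`
    with a neighbour `b` of colour `j`; `x ≠ xj` (one attached colour per vertex).
    `Cfg.full_attach` for `i'`: `yj ∈ cls i'` with a neighbour `b'` of colour `j`; `y ≠ yj`
    because `y` has the neighbour `x` of colour `i` and `yj` the neighbour `b'` of colour `j`.
    Now `hasCycle_three` with `S = cls i`, `T = cls j`, `R = cls i'`, `a = xj`, `a' = x`,
    `b`, `b'`, `c = yj`, `c' = y` contradicts `h.nocyc`.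
-/

namespace Vale.Agent.H29.CR

open SimpleGraph

variable {V : Type*} [DecidableEq V] {ι : Type*} [DecidableEq ι]
variable {G : SimpleGraph V} [DecidableRel G.Adj] {m n : ℕ} {c : V → ι} {W : Finset V}

/-- Different colour classes are disjoint. -/
theorem full2_disj {c : V → ι} {W : Finset V} {i j : ι} (hij : i ≠ j) :
    Disjoint (cls c W i) (cls c W j) := by
  rw [Finset.disjoint_left]
  intro v hv hv'
  exact hij ((mem_cls.1 hv).2.symm.trans (mem_cls.1 hv').2)

omit [DecidableRel G.Adj] in
/-- If `m = n` and the class of `i` has `m - 1` vertices, a second class has `m - 1` vertices. -/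
theorem full2_second (h : Cfg G m n c W) (hmn : m = n) {i : ι} (hi : i ∈ W.image c)
    (hq : (cls c W i).card + 1 = m) :
    ∃ i' ∈ W.image c, i' ≠ i ∧ (cls c W i').card + 1 = m := by
  by_contra hcon
  simp only [not_exists, not_and] at hcon
  have hle : ∀ j ∈ (W.image c).erase i, (cls c W j).card ≤ m - 2 := by
    intro j hj
    have hj' := Finset.mem_erase.1 hj
    have h1 := h.cls_card_le j
    have h2 := hcon j hj'.2 hj'.1
    omega
  have hsum : W.card = ∑ j ∈ W.image c, (cls c W j).card := Finset.card_eq_sum_card_image c W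
  have hsplit : ∑ j ∈ W.image c, (cls c W j).card
      = (cls c W i).card + ∑ j ∈ (W.image c).erase i, (cls c W j).card := by
    exact (Finset.add_sum_erase (W.image c) (fun j => (cls c W j).card) hi).symm
  have hbound : ∑ j ∈ (W.image c).erase i, (cls c W j).card
      ≤ ((W.image c).erase i).card * (m - 2) := by
    have h3 := Finset.sum_le_card_nsmul ((W.image c).erase i) (fun j => (cls c W j).card)
      (m - 2) hle
    rw [smul_eq_mul] at h3
    exact h3
  have hcard : ((W.image c).erase i).card = n - 1 := by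
    rw [Finset.card_erase_of_mem hi, h.cols_eq]
  have hbig := h.big
  have h6 := h.hm
  rw [hcard] at hbound
  rw [← hmn] at hbound hbig
  obtain ⟨k, hk⟩ : ∃ k, m = k + 2 := ⟨m - 2, by omega⟩
  have e1 : m - 1 = k + 1 := by omega
  have e2 : m - 2 = k := by omega
  rw [e1] at hbig
  rw [e1, e2] at hbound
  have hS : (cls c W i).card = k + 1 := by omega
  rw [hsum, hsplit, hS] at hbig
  nlinarith

/-- Minimum degree at least `m - 1` and a colour class with `m - 1` vertices: impossible. -/
theorem Cfg.mindeg_full_false (h : Cfg G m n c W) (hnm : n ≤ m)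
    (hdeg : ∀ v ∈ W, m ≤ (W.filter (fun u => G.Adj v u)).card + 1)
    {i : ι} (hi : i ∈ W.image c) (hq : (cls c W i).card + 1 = m) : False := by
  obtain ⟨hmn, hatt, huniq⟩ := h.full_attach hnm hdeg hi hq
  obtain ⟨i', hi', hii', hq'⟩ := full2_second h hmn hi hq
  obtain ⟨-, hatt', huniq'⟩ := h.full_attach hnm hdeg hi' hq'
  have hcols := h.cols_eq
  have h6 := h.hm
  obtain ⟨j, hj, hjn⟩ : ∃ j, j ∈ W.image c ∧ j ∉ ({i, i'} : Finset ι) := by
    apply Finset.exists_mem_notMem_of_card_lt_card
    have h2 : ({i, i'} : Finset ι).card ≤ 2 := Finset.card_le_two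
    omega
  have hji : j ≠ i := fun e => hjn (by simp [e])
  have hji' : j ≠ i' := fun e => hjn (by simp [e])
  obtain ⟨x, hx, y, hy, hcy, hxy⟩ := hatt i' hi' hii'
  obtain ⟨xj, hxj, b, hb, hcb, hxjb⟩ := hatt j hj hji
  obtain ⟨yj, hyj, b', hb', hcb', hyjb'⟩ := hatt' j hj hji'
  have hxW := (mem_cls.1 hx).1
  have hcx := (mem_cls.1 hx).2
  have hyR : y ∈ cls c W i' := mem_cls.2 ⟨hy, hcy⟩
  have hxx : xj ≠ x := by
    intro e
    have hxb : G.Adj x b := by
      rw [← e]
      exact hxjb
    have h3 := huniq x hx y hy b hb (by rw [hcy]; exact hii') (by rw [hcb]; exact hji) hxy hxb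
    rw [hcy, hcb] at h3
    exact hji' h3.symm
  have hyy : yj ≠ y := by
    intro e
    have hyb : G.Adj y b' := by
      rw [← e]
      exact hyjb'
    have h3 := huniq' y hyR x hxW b' hb' (by rw [hcx]; exact hii'.symm)
      (by rw [hcb']; exact hji') hxy.symm hyb
    rw [hcx, hcb'] at h3
    exact hji h3.symm
  exact h.nocyc (hasCycle_three G (cls c W i) (cls c W j) (cls c W i')
    (h.isClique_cls i) (h.isClique_cls j) (h.isClique_cls i')
    (full2_disj hji.symm) (full2_disj hii'.symm) (full2_disj hji')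
    hxj hx (mem_cls.2 ⟨hb, hcb⟩) (mem_cls.2 ⟨hb', hcb'⟩) hyj hyR hxx hyy
    hxjb hyjb'.symm hxy.symm m h6 (by omega))

end Vale.Agent.H29.CR
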