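import Vale.Agent.H29.CR.One1
import Vale.Agent.H29.CR.Cycles2

/-!
# Minimum degree `≥ m - 1` and a colour class with `m - 2` vertices: contradiction

Let `S = cls c W i`, `S.card = m - 2`, so a cycle of length `S.card + 2 = m` is a contradiction
with `h.nocyc`.

Proof sketch. `Cfg.exists_pure3` gives pure `u`; `Cfg.two_cross` gives neighbours `y1 ≠ y2` of
`u` of other colours (so `y1, y2 ∉ S`); purity gives `w1, w2 ∈ S`, `w1 ≠ u`, `w2 ≠ u` with
`y1 ~ w1`, `y2 ~ w2`.
* If `w1 ≠ w2`: `hasCycle_two_hubs_path` (centre `u`).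
* If `w1 = w2 = w`: take a pure `u2 ∉ {u, w}` (three pure leaves), a neighbour `y` of `u2` of
  another colour (`Cfg.two_cross`) and `z ∈ S`, `z ≠ u2`, `y ~ z` (purity).
  - `y = y1`: `y1 ~ u, u2` and `y2 ~ u, w`: `hasCycle_two_hubs_path` with centre `u`.
  - `y = y2`: symmetric.
  - otherwise, `z = u`: `y1 ~ u, w` and `y ~ u, u2`: path lemma with centre `u`;
    `z = w`: `y1 ~ w, u` and `y ~ w, u2`: path lemma with centre `w`;
    `z ∉ {u, w}`: `hasCycle_two_hubs_disj` with `y1 ~ u, w` and `y ~ u2, z`.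
-/

namespace Vale.Agent.H29.CR

open SimpleGraph

variable {V : Type*} [DecidableEq V] {ι : Type*} [DecidableEq ι]
variable {G : SimpleGraph V} [DecidableRel G.Adj] {m n : ℕ} {c : V → ι} {W : Finset V}

/-- Minimum degree at least `m - 1`, `n + 2 ≤ m`, and a colour class with `m - 2` vertices:
impossible. -/
theorem Cfg.mindeg_one_false (h : Cfg G m n c W) (hnm : n + 2 ≤ m)
    (hdeg : ∀ v ∈ W, m ≤ (W.filter (fun u => G.Adj v u)).card + 1)
    {i : ι} (hi : i ∈ W.image c) (hq : (cls c W i).card + 2 = m) : False := by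
  have hS : G.IsClique ((cls c W i : Finset V) : Set V) := by
    intro a ha b hb hab
    have ha' := Finset.mem_filter.1 (Finset.mem_coe.1 ha)
    have hb' := Finset.mem_filter.1 (Finset.mem_coe.1 hb)
    exact h.adj a ha'.1 b hb'.1 hab (ha'.2.trans hb'.2.symm)
  have hnot : ∀ y, c y ≠ i → y ∉ cls c W i := by
    intro y hy hmem
    exact hy (Finset.mem_filter.1 hmem).2
  have hcyc : HasCycle G ((cls c W i).card + 2) → False := by
    intro hc
    rw [hq] at hc
    exact h.nocyc hc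
  obtain ⟨P, hPS, hP3, hPpure⟩ := Cfg.exists_pure3 h hnm hdeg hi hq
  obtain ⟨u, huP⟩ : P.Nonempty := Finset.card_pos.1 (by omega)
  have hu : u ∈ cls c W i := hPS huP
  obtain ⟨y1, hy1W, y2, hy2W, hy12, hcy1, hcy2, hadj1, hadj2⟩ := Cfg.two_cross h hdeg hq hu
  obtain ⟨w1, hw1, hw1u, hw1y⟩ := hPpure u huP y1 hy1W hcy1 hadj1
  obtain ⟨w2, hw2, hw2u, hw2y⟩ := hPpure u huP y2 hy2W hcy2 hadj2
  by_cases hww : w1 = w2
  · have hw1y2 : G.Adj w1 y2 := by rw [hww]; exact hw2y
    obtain ⟨u2, hu2⟩ : ((P.erase u).erase w1).Nonempty := by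
      apply Finset.card_pos.1
      have h1 := Finset.pred_card_le_card_erase (s := P.erase u) (a := w1)
      have h2 := Finset.pred_card_le_card_erase (s := P) (a := u)
      omega
    have hu2w : u2 ≠ w1 := (Finset.mem_erase.1 hu2).1
    have hu2' := (Finset.mem_erase.1 hu2).2
    have hu2u : u2 ≠ u := (Finset.mem_erase.1 hu2').1
    have hu2P : u2 ∈ P := (Finset.mem_erase.1 hu2').2
    have hu2S : u2 ∈ cls c W i := hPS hu2P
    obtain ⟨y, hyW, y', hyW', hyy', hcy, hcy', hadjy, hadjy'⟩ :=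
      Cfg.two_cross h hdeg hq hu2S
    obtain ⟨z, hz, hzu2, hzy⟩ := hPpure u2 hu2P y hyW hcy hadjy
    by_cases e1 : y = y1
    · have hA : G.Adj y1 u2 := by rw [← e1]; exact hadjy.symm
      exact hcyc (hasCycle_two_hubs_path G _ hS (u := u) (w := u2) (w' := w1) (y := y1)
        (y' := y2) hu hu2S hw1 hu2u.symm hw1u.symm hu2w (hnot _ hcy1) (hnot _ hcy2) hy12
        hadj1.symm hA hadj2.symm hw1y2.symm)
    · by_cases e2 : y = y2
      · have hA : G.Adj y2 u2 := by rw [← e2]; exact hadjy.symm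
        exact hcyc (hasCycle_two_hubs_path G _ hS (u := u) (w := u2) (w' := w1) (y := y2)
          (y' := y1) hu hu2S hw1 hu2u.symm hw1u.symm hu2w (hnot _ hcy2) (hnot _ hcy1)
          hy12.symm hadj2.symm hA hadj1.symm hw1y.symm)
      · by_cases e3 : z = u
        · have hA : G.Adj y u := by rw [← e3]; exact hzy.symm
          exact hcyc (hasCycle_two_hubs_path G _ hS (u := u) (w := w1) (w' := u2) (y := y1)
            (y' := y) hu hw1 hu2S hw1u.symm hu2u.symm hu2w.symm (hnot _ hcy1) (hnot _ hcy)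
            (Ne.symm e1) hadj1.symm hw1y.symm hA hadjy.symm)
        · by_cases e4 : z = w1
          · have hA : G.Adj y w1 := by rw [← e4]; exact hzy.symm
            exact hcyc (hasCycle_two_hubs_path G _ hS (u := w1) (w := u) (w' := u2) (y := y1)
              (y' := y) hw1 hu hu2S hw1u hu2w.symm hu2u.symm (hnot _ hcy1) (hnot _ hcy)
              (Ne.symm e1) hw1y.symm hadj1.symm hA hadjy.symm)
          · exact hcyc (hasCycle_two_hubs_disj G _ hS (u := u) (w := w1) (u2 := u2) (z := z)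
              (y := y1) (y2 := y) hu hw1 hu2S hz hw1u.symm hu2u.symm (Ne.symm e3) hu2w.symm
              (Ne.symm e4) hzu2.symm (hnot _ hcy1) (hnot _ hcy) (Ne.symm e1) hadj1.symm
              hw1y.symm hadjy.symm hzy.symm)
  · exact hcyc (hasCycle_two_hubs_path G _ hS (u := u) (w := w1) (w' := w2) (y := y1)
      (y' := y2) hu hw1 hw2 hw1u.symm hw2u.symm hww (hnot _ hcy1) (hnot _ hcy2) hy12
      hadj1.symm hw1y.symm hadj2.symm hw2y.symm)

end Vale.Agent.H29.CR
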