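import Vale.Agent.H29.CR.Full2
import Vale.Agent.H29.CR.One2

/-!
# Minimum degree `≥ m - 1` is impossible when `n ≤ m ≤ 2n - 2`

Proof sketch. `W.image c` has `n ≥ 1` elements (`Cfg.cols_eq`); let `i` be a colour whose class
is largest, `q = (cls c W i).card ≤ m - 1` (`Cfg.cls_card_le`).
* `q = m - 1`: `Cfg.mindeg_full_false`.
* `q = m - 2`: all classes have at most `m - 2` vertices, so
  `(m-1)(n-1) < W.card ≤ n (m-2)` (`Finset.card_eq_sum_card_image c W`), i.e. `n + 2 ≤ m`;
  `Cfg.mindeg_one_false`.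
* `q ≤ m - 3`: `(m-1)(n-1) < W.card ≤ n (m-3)` gives `2n + 1 < m`, against `hmn`.
-/

namespace Vale.Agent.H29.CR

open SimpleGraph

variable {V : Type*} [DecidableEq V] {ι : Type*} [DecidableEq ι]
variable {G : SimpleGraph V} [DecidableRel G.Adj] {m n : ℕ} {c : V → ι} {W : Finset V}

/-- Minimum degree at least `m - 1` is impossible when `n ≤ m ≤ 2n - 2`. -/
theorem Cfg.mindeg_false (h : Cfg G m n c W) (hnm : n ≤ m) (hmn : m + 2 ≤ 2 * n)
    (hdeg : ∀ v ∈ W, m ≤ (W.filter (fun u => G.Adj v u)).card + 1) : False := by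
  have hm := h.hm
  have hcols : (W.image c).card = n := h.cols_eq
  have hne : (W.image c).Nonempty := by
    rw [← Finset.card_pos, hcols]
    omega
  obtain ⟨i, hi, hmax⟩ := Finset.exists_max_image (W.image c) (fun j => (cls c W j).card) hne
  have hq1 : (cls c W i).card + 1 ≤ m := h.cls_card_le i
  have hsum : W.card = ∑ j ∈ W.image c, (cls c W j).card := Finset.card_eq_sum_card_image c W
  have hle : W.card ≤ n * (cls c W i).card := by
    rw [hsum, ← hcols, ← smul_eq_mul]
    exact Finset.sum_le_card_nsmul _ _ _ hmax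
  have hbig := h.big
  obtain ⟨M, rfl⟩ : ∃ M, m = M + 1 := ⟨m - 1, by omega⟩
  obtain ⟨K, rfl⟩ : ∃ K, n = K + 1 := ⟨n - 1, by omega⟩
  rw [Nat.add_sub_cancel, Nat.add_sub_cancel] at hbig
  have hlt : M * K < (K + 1) * (cls c W i).card := lt_of_lt_of_le hbig hle
  rcases Nat.lt_or_ge ((cls c W i).card + 1) (M + 1) with hlt1 | hge1
  · rcases Nat.lt_or_ge ((cls c W i).card + 2) (M + 1) with hlt2 | hge2
    · have h3 := Nat.mul_le_mul_left (K + 1) (show (cls c W i).card + 2 ≤ M by omega)
      nlinarith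
    · have hq : (cls c W i).card + 2 = M + 1 := by omega
      have hM : M = (cls c W i).card + 1 := by omega
      have hK : K + 1 + 2 ≤ M + 1 := by
        rw [hM] at hlt ⊢
        nlinarith
      exact h.mindeg_one_false hK hdeg hi hq
  · have hq : (cls c W i).card + 1 = M + 1 := by omega
    exact h.mindeg_full_false hnm hdeg hi hq

end Vale.Agent.H29.CR
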