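import Vale.Agent.H29.CR.Classes

/-!
# Inductive step: deleting a vertex of small degree together with its neighbours

Proof sketch. If `n = 0` take `s = {v}`. Otherwise let
`W' = W.filter (fun u => u ≠ v ∧ ¬ G.Adj v u)`. Then `Cfg G m n c W'`:
`adj`, `nocyc`, `hm` are inherited; `W'.card ≥ W.card - 1 - (m - 2) > (m-1) n - (m-1)`;
the colour `c v` does not occur on `W'` (a vertex `u ≠ v` of colour `c v` is adjacent to `v` by
`h.adj`), so `W'.image c ⊆ (W.image c).erase (c v)` has at most `n` elements.
Apply `IH` to `W'` to get `s'` and take `s = insert v s'`.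
-/

namespace Vale.Agent.H29.CR

open SimpleGraph

variable {V : Type*} [DecidableEq V] {ι : Type*} [DecidableEq ι]
variable {G : SimpleGraph V} [DecidableRel G.Adj] {m n : ℕ} {c : V → ι} {W : Finset V}

/-- Counting: the vertices of `W` that are deleted (the vertex `v` and its neighbours) are at
most one more than the neighbours of `v` in `W`. -/
theorem reduce_card_le (W : Finset V) (v : V) :
    W.card ≤ (W.filter (fun u => u ≠ v ∧ ¬ G.Adj v u)).card
      + ((W.filter (fun u => G.Adj v u)).card + 1) := by
  classical
  have hsub : W ⊆ (W.filter (fun u => u ≠ v ∧ ¬ G.Adj v u))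
      ∪ (insert v (W.filter (fun u => G.Adj v u))) := by
    intro u hu
    by_cases h1 : u = v
    · exact Finset.mem_union_right _ (by simp [h1])
    · by_cases h2 : G.Adj v u
      · exact Finset.mem_union_right _
          (Finset.mem_insert_of_mem (Finset.mem_filter.mpr ⟨hu, h2⟩))
      · exact Finset.mem_union_left _ (Finset.mem_filter.mpr ⟨hu, h1, h2⟩)
  calc W.card ≤ ((W.filter (fun u => u ≠ v ∧ ¬ G.Adj v u))
        ∪ (insert v (W.filter (fun u => G.Adj v u)))).card := Finset.card_le_card hsub
    _ ≤ (W.filter (fun u => u ≠ v ∧ ¬ G.Adj v u)).card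
        + (insert v (W.filter (fun u => G.Adj v u))).card := Finset.card_union_le _ _
    _ ≤ (W.filter (fun u => u ≠ v ∧ ¬ G.Adj v u)).card
        + ((W.filter (fun u => G.Adj v u)).card + 1) :=
      Nat.add_le_add_left (Finset.card_insert_le _ _) _

/-- A vertex with at most `m - 2` neighbours in `W` is deleted together with its neighbours;
the rest satisfies the standing assumptions with `n` instead of `n + 1`. -/
theorem Cfg.reduce (h : Cfg G m (n + 1) c W) {v : V} (hv : v ∈ W)
    (hdeg : (W.filter (fun u => G.Adj v u)).card + 2 ≤ m)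
    (IH : ∀ W' : Finset V, Cfg G m n c W' → ∃ s ⊆ W', G.IsIndepSet (s : Set V) ∧ s.card = n) :
    ∃ s ⊆ W, G.IsIndepSet (s : Set V) ∧ s.card = n + 1 := by
  classical
  rcases Nat.eq_zero_or_pos n with hn | hn
  · subst hn
    refine ⟨{v}, Finset.singleton_subset_iff.mpr hv, ?_, by simp⟩
    intro x hx y hy hxy
    simp only [Finset.coe_singleton, Set.mem_singleton_iff] at hx hy
    exact absurd (hx.trans hy.symm) hxy
  · set W' : Finset V := W.filter (fun u => u ≠ v ∧ ¬ G.Adj v u) with hW'
    have hW'sub : W' ⊆ W := Finset.filter_subset _ _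
    have hmem : ∀ u, u ∈ W' → u ∈ W ∧ u ≠ v ∧ ¬ G.Adj v u := by
      intro u hu
      exact Finset.mem_filter.mp hu
    have hcfg : Cfg G m n c W' := by
      refine ⟨?_, h.nocyc, ?_, ?_, h.hm⟩
      · intro u hu w hw huw hc
        exact h.adj u (hW'sub hu) w (hW'sub hw) huw hc
      · have hbig := h.big
        have hcount := reduce_card_le (G := G) W v
        obtain ⟨k, rfl⟩ : ∃ k, n = k + 1 := ⟨n - 1, by omega⟩
        simp only [Nat.add_sub_cancel] at hbig ⊢
        have hm1 : (W.filter (fun u => G.Adj v u)).card + 1 ≤ m - 1 := by omega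
        have hexp : (m - 1) * (k + 1) = (m - 1) * k + (m - 1) := by ring
        rw [hexp] at hbig
        have : W.card ≤ W'.card + (m - 1) := le_trans hcount (Nat.add_le_add_left hm1 _)
        omega
      · have hsub : W'.image c ⊆ (W.image c).erase (c v) := by
          intro i hi
          obtain ⟨u, hu, rfl⟩ := Finset.mem_image.mp hi
          obtain ⟨huW, huv, hadj⟩ := hmem u hu
          refine Finset.mem_erase.mpr ⟨?_, Finset.mem_image_of_mem c huW⟩
          intro hcu
          exact hadj (h.adj v hv u huW (Ne.symm huv) hcu.symm)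
        have hcv : c v ∈ W.image c := Finset.mem_image_of_mem c hv
        have h1 := Finset.card_le_card hsub
        rw [Finset.card_erase_of_mem hcv] at h1
        have h2 := h.cols
        omega
    obtain ⟨s', hs'sub, hs'ind, hs'card⟩ := IH W' hcfg
    have hvs' : v ∉ s' := by
      intro hvs
      exact (hmem v (hs'sub hvs)).2.1 rfl
    refine ⟨insert v s', ?_, ?_, ?_⟩
    · intro x hx
      rcases Finset.mem_insert.mp hx with rfl | hx
      · exact hv
      · exact hW'sub (hs'sub hx)
    · intro x hx y hy hxy
      simp only [Finset.coe_insert, Set.mem_insert_iff, Finset.mem_coe] at hx hy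
      rcases hx with rfl | hx
      · rcases hy with rfl | hy
        · exact absurd rfl hxy
        · exact (hmem y (hs'sub hy)).2.2
      · rcases hy with rfl | hy
        · intro hadj
          exact (hmem x (hs'sub hx)).2.2 hadj.symm
        · exact hs'ind (Finset.mem_coe.mpr hx) (Finset.mem_coe.mpr hy) hxy
    · rw [Finset.card_insert_of_notMem hvs', hs'card]

end Vale.Agent.H29.CR
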