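import Vale.Agent.H29.CR.Direct
import Vale.Agent.H29.CR.Reduce
import Vale.Agent.H29.CR.MinDeg

/-!
# Main theorem: cycle of length `m` or independent `n`-set when the complement is `n`-colourable
-/

namespace Vale.Agent.H29.CR

open SimpleGraph

variable {V : Type*} [DecidableEq V] {ι : Type*} [LinearOrder ι]

/-- Core statement, by induction on `n`. -/
theorem core (G : SimpleGraph V) [DecidableRel G.Adj] (m : ℕ) (c : V → ι) :
    ∀ n, n ≤ m → ∀ W : Finset V, Cfg G m n c W →
      ∃ s ⊆ W, G.IsIndepSet (s : Set V) ∧ s.card = n := by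
  intro n
  induction n with
  | zero =>
    intro _ W _
    exact ⟨∅, Finset.empty_subset _, by simp, rfl⟩
  | succ n ih =>
    intro hnm W h
    by_cases hd : 2 * (n + 1) ≤ m + 1
    · exact h.direct hd
    · by_cases hlow : ∃ v ∈ W, (W.filter (fun u => G.Adj v u)).card + 2 ≤ m
      · obtain ⟨v, hv, hdeg⟩ := hlow
        exact h.reduce hv hdeg (fun W' h' => ih (by omega) W' h')
      · exfalso
        refine h.mindeg_false hnm (by omega) (fun v hv => ?_)
        by_contra hcon
        exact hlow ⟨v, hv, by omega⟩

/-- Main theorem. If the complement of `G` is `n`-colourable (the vertex set of `G` is covered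
by `n` cliques), `6 ≤ m`, `n ≤ m` and `G` has more than `(m-1)(n-1)` vertices, then `G` contains
a cycle of length exactly `m` or an independent set of `n` vertices. -/
theorem cycle_or_indep {V : Type*} [Fintype V] (G : SimpleGraph V) (m n : ℕ) (hm : 6 ≤ m)
    (hnm : n ≤ m) (hcol : Gᶜ.Colorable n) (hcard : (m - 1) * (n - 1) < Fintype.card V) :
    (∃ (v : V) (p : G.Walk v v), p.IsCycle ∧ p.length = m) ∨
      ∃ s : Finset V, G.IsNIndepSet n s := by
  classical
  by_cases hcyc : HasCycle G m
  · exact Or.inl hcyc
  · right
    obtain ⟨C⟩ := hcol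
    have hC : ∀ u v : V, u ≠ v → C u = C v → G.Adj u v := by
      intro u v huv hcuv
      by_contra hadj
      exact C.valid (show Gᶜ.Adj u v from ⟨huv, hadj⟩) hcuv
    have hcfg : Cfg G m n (fun v => C v) Finset.univ :=
      { adj := fun u _ v _ huv hcuv => hC u v huv hcuv
        nocyc := hcyc
        big := by simpa using hcard
        cols := by
          calc (Finset.univ.image (fun v => C v)).card ≤ (Finset.univ : Finset (Fin n)).card :=
                Finset.card_le_card (Finset.subset_univ _)
            _ = n := by simp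
        hm := hm }
    obtain ⟨s, -, hs, hsc⟩ := core G m (fun v => C v) n hnm Finset.univ hcfg
    exact ⟨s, ⟨hs, hsc⟩⟩

end Vale.Agent.H29.CR
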