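import Vale.Agent.H29.CR.Classes

/-!
# Minimum degree `≥ m - 1` and a colour class with `m - 2` vertices: pure leaves

Let `S = cls c W i`, `S.card = m - 2`.

Proof sketch of `Cfg.two_cross`: `x` has at least `m - 1` neighbours in `W` (`hdeg`); at most
`S.card - 1 = m - 3` of them have colour `i` (they lie in `S.erase x`); so at least two have
another colour.

Proof sketch of `Cfg.exists_pure3`: let `P` be the set of `x ∈ S` with `Pure G c W i x` and
`N = S \ P`. Every `x ∈ N` has a neighbour `y ∈ W`, `c y ≠ i`, whose only neighbour in `S` is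
`x`; put `g x = c y`.
(1) `g` is injective on `N`: for `x ≠ x'` with `g x = g x'`, `Cfg.star` gives `y = y'`, so `y`
    is adjacent to `x'` too, a contradiction.
(2) If a colour `j` contains a vertex `z ∈ W` with two neighbours `x1 ≠ x2` in `S` (a hub
    colour), then `j ≠ g x` for all `x ∈ N`: `Cfg.star` for the edges `x y`, `x1 z` and
    `x y`, `x2 z` (note `y ≠ z`) gives `x = x1` and `x = x2`.
(3) `N.card ≤ n - 1 < m - 2 = S.card` (`g` maps into `(W.image c).erase i`, `Cfg.cols_eq`), so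
    some `u ∈ P` exists. By `Cfg.two_cross` it has neighbours `y1 ≠ y2` of other colours, both
    with a second neighbour in `S` (`u` is pure). Their colours differ: if `c y1 = c y2`, with
    `w1 ≠ u` a second neighbour of `y1`, `Cfg.star` for the edges `w1 y1`, `u y2` fails.
(4) So `g` maps `N` injectively into `(W.image c) \ {i, c y1, c y2}`, which has `n - 3`
    elements; `P.card ≥ (m - 2) - (n - 3) ≥ 3`.
-/

namespace Vale.Agent.H29.CR

open SimpleGraph

variable {V : Type*} [DecidableEq V] {ι : Type*} [DecidableEq ι]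
variable {G : SimpleGraph V} [DecidableRel G.Adj] {m n : ℕ} {c : V → ι} {W : Finset V}

/-- Every vertex of a class with `m - 2` vertices has two neighbours of other colours. -/
theorem Cfg.two_cross (h : Cfg G m n c W)
    (hdeg : ∀ v ∈ W, m ≤ (W.filter (fun u => G.Adj v u)).card + 1)
    {i : ι} (hq : (cls c W i).card + 2 = m) {x : V} (hx : x ∈ cls c W i) :
    ∃ y1 ∈ W, ∃ y2 ∈ W, y1 ≠ y2 ∧ c y1 ≠ i ∧ c y2 ≠ i ∧ G.Adj x y1 ∧ G.Adj x y2 := by
  classical
  have hxW : x ∈ W := (mem_cls.mp hx).1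
  have h1 := hdeg x hxW
  have hsplit : ((W.filter (fun u => G.Adj x u)).filter (fun u => c u = i)).card +
      ((W.filter (fun u => G.Adj x u)).filter (fun u => ¬ c u = i)).card =
      (W.filter (fun u => G.Adj x u)).card :=
    Finset.card_filter_add_card_filter_not _
  have hsub : (W.filter (fun u => G.Adj x u)).filter (fun u => c u = i) ⊆ (cls c W i).erase x := by
    intro u hu
    rw [Finset.mem_filter, Finset.mem_filter] at hu
    rw [Finset.mem_erase]
    exact ⟨(G.ne_of_adj hu.1.2).symm, mem_cls.mpr ⟨hu.1.1, hu.2⟩⟩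
  have hle := Finset.card_le_card hsub
  rw [Finset.card_erase_of_mem hx] at hle
  have hpos : 0 < (cls c W i).card := Finset.card_pos.mpr ⟨x, hx⟩
  have h2 : 1 < ((W.filter (fun u => G.Adj x u)).filter (fun u => ¬ c u = i)).card := by omega
  obtain ⟨y1, hy1, y2, hy2, hne⟩ := Finset.one_lt_card.mp h2
  rw [Finset.mem_filter, Finset.mem_filter] at hy1 hy2
  exact ⟨y1, hy1.1.1, y2, hy2.1.1, hne, hy1.2, hy2.2, hy1.1.2, hy2.1.2⟩

/-- A class with `m - 2` vertices has at least three pure leaves (if `n + 2 ≤ m`). -/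
theorem Cfg.exists_pure3 (h : Cfg G m n c W) (hnm : n + 2 ≤ m)
    (hdeg : ∀ v ∈ W, m ≤ (W.filter (fun u => G.Adj v u)).card + 1)
    {i : ι} (hi : i ∈ W.image c) (hq : (cls c W i).card + 2 = m) :
    ∃ P ⊆ cls c W i, 3 ≤ P.card ∧ ∀ x ∈ P, Pure G c W i x := by
  classical
  obtain ⟨v0, -, -⟩ := Finset.mem_image.mp hi
  have hne0 : Nonempty V := ⟨v0⟩
  have hcard : ((cls c W i).filter (fun x => Pure G c W i x)).card +
      ((cls c W i).filter (fun x => ¬ Pure G c W i x)).card = (cls c W i).card :=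
    Finset.card_filter_add_card_filter_not _
  have hwit : ∀ x ∈ (cls c W i).filter (fun x => ¬ Pure G c W i x),
      ∃ y, y ∈ W ∧ c y ≠ i ∧ G.Adj x y ∧ ∀ x' ∈ cls c W i, x' ≠ x → ¬ G.Adj x' y := by
    intro x hx
    have hx2 := (Finset.mem_filter.mp hx).2
    unfold Pure at hx2
    simp only [not_forall, not_exists, not_and] at hx2
    obtain ⟨y, hyW, hcy, hadj, hno⟩ := hx2
    exact ⟨y, hyW, hcy, hadj, hno⟩
  choose! y hy using hwit
  have hNS : ∀ x ∈ (cls c W i).filter (fun x => ¬ Pure G c W i x), x ∈ cls c W i :=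
    fun x hx => (Finset.mem_filter.mp hx).1
  have hSW : ∀ x ∈ cls c W i, x ∈ W ∧ c x = i := fun x hx => mem_cls.mp hx
  have hcols := h.cols_eq
  -- (1) injectivity
  have hinj : Set.InjOn (fun x => c (y x))
      (((cls c W i).filter (fun x => ¬ Pure G c W i x) : Finset V) : Set V) := by
    intro x hx x' hx' hg
    have hx := Finset.mem_coe.mp hx
    have hx' := Finset.mem_coe.mp hx'
    by_contra hne
    obtain ⟨hyW, hcy, hadj, hno⟩ := hy x hx
    obtain ⟨hyW', hcy', hadj', hno'⟩ := hy x' hx'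
    have hxS := hNS x hx
    have hxS' := hNS x' hx'
    have hst := h.star (hSW x hxS).1 (hSW x' hxS').1 hyW hyW'
      ((hSW x hxS).2.trans (hSW x' hxS').2.symm) hg
      (by rw [(hSW x hxS).2]; exact fun e => hcy e.symm) hadj hadj'
    rcases hst with e | e
    · exact hne e
    · exact hno x' hxS' (Ne.symm hne) (by rw [e]; exact hadj')
  -- (2) hub colours are avoided
  have hhub : ∀ z ∈ W, ∀ x1 ∈ cls c W i, ∀ x2 ∈ cls c W i, x1 ≠ x2 → G.Adj x1 z → G.Adj x2 z →
      ∀ x ∈ (cls c W i).filter (fun x => ¬ Pure G c W i x), c (y x) ≠ c z := by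
    intro z hz x1 hx1 x2 hx2 h12 ha1 ha2 x hx hg
    obtain ⟨hyW, hcy, hadj, hno⟩ := hy x hx
    have hxS := hNS x hx
    have hyz : y x ≠ z := by
      intro e
      by_cases hx1x : x1 = x
      · have hx2x : x2 ≠ x := fun e2 => h12 (hx1x.trans e2.symm)
        exact hno x2 hx2 hx2x (by rw [e]; exact ha2)
      · exact hno x1 hx1 hx1x (by rw [e]; exact ha1)
    have s1 := h.star (hSW x hxS).1 (hSW x1 hx1).1 hyW hz
      ((hSW x hxS).2.trans (hSW x1 hx1).2.symm) hg
      (by rw [(hSW x hxS).2]; exact fun e => hcy e.symm) hadj ha1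
    have s2 := h.star (hSW x hxS).1 (hSW x2 hx2).1 hyW hz
      ((hSW x hxS).2.trans (hSW x2 hx2).2.symm) hg
      (by rw [(hSW x hxS).2]; exact fun e => hcy e.symm) hadj ha2
    rcases s1 with e1 | e1
    · rcases s2 with e2 | e2
      · exact h12 (e1.symm.trans e2)
      · exact hyz e2
    · exact hyz e1
  -- (3) a first bound and a pure vertex
  have hn1 : ((W.image c).erase i).card = n - 1 := by
    rw [Finset.card_erase_of_mem hi, hcols]
  have himg1 : ((cls c W i).filter (fun x => ¬ Pure G c W i x)).image (fun x => c (y x)) ⊆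
      (W.image c).erase i := by
    intro j hj
    obtain ⟨x, hx, rfl⟩ := Finset.mem_image.mp hj
    obtain ⟨hyW, hcy, -, -⟩ := hy x hx
    exact Finset.mem_erase.mpr ⟨hcy, Finset.mem_image_of_mem c hyW⟩
  have hNcard : ((cls c W i).filter (fun x => ¬ Pure G c W i x)).card =
      (((cls c W i).filter (fun x => ¬ Pure G c W i x)).image (fun x => c (y x))).card :=
    (Finset.card_image_of_injOn hinj).symm
  have hb1 := Finset.card_le_card himg1
  have hnpos : 0 < (W.image c).card := Finset.card_pos.mpr ⟨i, hi⟩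
  have hPpos : 0 < ((cls c W i).filter (fun x => Pure G c W i x)).card := by omega
  obtain ⟨u, hu⟩ := Finset.card_pos.mp hPpos
  have huS : u ∈ cls c W i := (Finset.mem_filter.mp hu).1
  have hupure : Pure G c W i u := (Finset.mem_filter.mp hu).2
  obtain ⟨y1, hy1W, y2, hy2W, hy12, hc1, hc2, ha1, ha2⟩ := h.two_cross hdeg hq huS
  obtain ⟨w1, hw1S, hw1u, hw1a⟩ := hupure y1 hy1W hc1 ha1
  obtain ⟨w2, hw2S, hw2u, hw2a⟩ := hupure y2 hy2W hc2 ha2
  have hcy12 : c y1 ≠ c y2 := by
    intro e
    have hst := h.star (hSW w1 hw1S).1 (hSW u huS).1 hy1W hy2W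
      ((hSW w1 hw1S).2.trans (hSW u huS).2.symm) e
      (by rw [(hSW w1 hw1S).2]; exact fun e' => hc1 e'.symm) hw1a ha2
    rcases hst with e1 | e1
    · exact hw1u e1
    · exact hy12 e1
  -- (4) the sharper bound
  have hm1 : c y1 ∈ (W.image c).erase i :=
    Finset.mem_erase.mpr ⟨hc1, Finset.mem_image_of_mem c hy1W⟩
  have hm2 : c y2 ∈ ((W.image c).erase i).erase (c y1) :=
    Finset.mem_erase.mpr ⟨fun e => hcy12 e.symm,
      Finset.mem_erase.mpr ⟨hc2, Finset.mem_image_of_mem c hy2W⟩⟩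
  have hn3 : ((((W.image c).erase i).erase (c y1)).erase (c y2)).card = n - 1 - 1 - 1 := by
    rw [Finset.card_erase_of_mem hm2, Finset.card_erase_of_mem hm1, hn1]
  have himg3 : ((cls c W i).filter (fun x => ¬ Pure G c W i x)).image (fun x => c (y x)) ⊆
      (((W.image c).erase i).erase (c y1)).erase (c y2) := by
    intro j hj
    have hj1 := himg1 hj
    obtain ⟨x, hx, rfl⟩ := Finset.mem_image.mp hj
    refine Finset.mem_erase.mpr ⟨?_, Finset.mem_erase.mpr ⟨?_, hj1⟩⟩
    · exact hhub y2 hy2W u huS w2 hw2S (Ne.symm hw2u) ha2 hw2a x hx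
    · exact hhub y1 hy1W u huS w1 hw1S (Ne.symm hw1u) ha1 hw1a x hx
  have hb3 := Finset.card_le_card himg3
  have hm6 := h.hm
  refine ⟨(cls c W i).filter (fun x => Pure G c W i x), Finset.filter_subset _ _, ?_,
    fun x hx => (Finset.mem_filter.mp hx).2⟩
  omega

end Vale.Agent.H29.CR
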